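import Mathlib

namespace Vale.Agent.P034.Packing
open Finset

lemma pow_succ_ge (s θ : ℝ) (hs : 0 ≤ s) (hθ : 0 ≤ θ) (k : ℕ) :
    s ^ (k + 1) + (k + 1) * θ * s ^ k ≤ (s + θ) ^ (k + 1) := by
  induction k with
  | zero => simp
  | succ k ih =>
    have h1 : (s + θ) * (s ^ (k + 1) + (k + 1) * θ * s ^ k) ≤ (s + θ) * (s + θ) ^ (k + 1) :=
      mul_le_mul_of_nonneg_left ih (by positivity)
    have h2 : (s + θ) * (s + θ) ^ (k + 1) = (s + θ) ^ (k + 1 + 1) := by ring
    have h3 : 0 ≤ (k + 1) * θ ^ 2 * s ^ k := by positivity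
    rw [← h2]
    refine le_trans ?_ h1
    push_cast
    have h4 : (s + θ) * (s ^ (k + 1) + (k + 1) * θ * s ^ k)
        = s ^ (k + 1 + 1) + ((k : ℝ) + 1 + 1) * θ * s ^ (k + 1) + (k + 1) * θ ^ 2 * s ^ k := by ring
    rw [h4]
    linarith

lemma esymm_le {ι : Type*} [DecidableEq ι] (θ : ι → ℝ) (hθ : ∀ i, 0 ≤ θ i) (A : Finset ι) :
    ∀ k : ℕ, ∑ B ∈ Finset.powersetCard k A, ∏ i ∈ B, θ i ≤ (∑ i ∈ A, θ i) ^ k / (k.factorial : ℝ) := by
  induction A using Finset.induction_on with
  | empty =>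
    intro k
    cases k with
    | zero => simp
    | succ k =>
      rw [Finset.powersetCard_eq_empty.2 (by simp)]
      simp
  | insert a A ha ih =>
    intro k
    cases k with
    | zero => simp
    | succ k =>
      rw [Finset.powersetCard_succ_insert ha, Finset.sum_union, Finset.sum_image]
      · have h1 : ∑ B ∈ Finset.powersetCard k A, ∏ i ∈ insert a B, θ i
            = θ a * ∑ B ∈ Finset.powersetCard k A, ∏ i ∈ B, θ i := by
          rw [Finset.mul_sum]
          refine Finset.sum_congr rfl (fun B hB => ?_)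
          have : a ∉ B := fun h => ha ((Finset.mem_powersetCard.1 hB).1 h)
          rw [Finset.prod_insert this]
        rw [h1, Finset.sum_insert ha]
        set s := ∑ i ∈ A, θ i with hs
        have hs0 : 0 ≤ s := Finset.sum_nonneg (fun i _ => hθ i)
        have e1 := ih (k + 1)
        have e2 := mul_le_mul_of_nonneg_left (ih k) (hθ a)
        have e3 := pow_succ_ge s (θ a) hs0 (hθ a) k
        have hf : ((k + 1).factorial : ℝ) = (k + 1) * (k.factorial : ℝ) := by
          rw [Nat.factorial_succ]; push_cast; ring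
        have hk : (0 : ℝ) < k.factorial := by positivity
        have e4 : s ^ (k + 1) / ((k + 1).factorial : ℝ) + θ a * (s ^ k / (k.factorial : ℝ))
            = (s ^ (k + 1) + (k + 1) * θ a * s ^ k) / ((k + 1).factorial : ℝ) := by
          rw [hf]; field_simp
        calc _ ≤ s ^ (k + 1) / ((k + 1).factorial : ℝ) + θ a * (s ^ k / (k.factorial : ℝ)) :=
              add_le_add e1 e2
          _ = (s ^ (k + 1) + (k + 1) * θ a * s ^ k) / ((k + 1).factorial : ℝ) := e4
          _ ≤ (θ a + s) ^ (k + 1) / ((k + 1).factorial : ℝ) := by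
              rw [add_comm (θ a) s]
              exact div_le_div_of_nonneg_right e3 (by positivity)
      · intro B hB C hC h
        have hB' : a ∉ B := fun h => ha ((Finset.mem_powersetCard.1 hB).1 h)
        have hC' : a ∉ C := fun h => ha ((Finset.mem_powersetCard.1 hC).1 h)
        have := congrArg (fun D => D.erase a) h
        simpa [Finset.erase_insert hB', Finset.erase_insert hC'] using this
      · rw [Finset.disjoint_left]
        intro B hB hB2
        obtain ⟨C, _, rfl⟩ := Finset.mem_image.1 hB2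
        exact ha ((Finset.mem_powersetCard.1 hB).1 (Finset.mem_insert_self a C))

lemma sum_b (J : ℕ) : ∑ j ∈ Finset.range J, ((j : ℝ) + 1) / 2 ^ j = 4 - (2 * J + 4) / 2 ^ J := by
  induction J with
  | zero => simp
  | succ J ih =>
    rw [Finset.sum_range_succ, ih]
    push_cast
    field_simp
    ring

lemma sum_geo (J : ℕ) : ∑ j ∈ Finset.range J, (1 / 3 : ℝ) ^ (j + 1) ≤ 1 / 2 := by
  have : ∑ j ∈ Finset.range J, (1 / 3 : ℝ) ^ (j + 1) = (1 - (1 / 3) ^ J) / 2 := by
    induction J with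
    | zero => simp
    | succ J ih =>
      rw [Finset.sum_range_succ, ih]
      ring
  rw [this]
  have : (0 : ℝ) ≤ (1 / 3) ^ J := by positivity
  linarith

/-- cost of one class -/
lemma class_cost {x : ℝ} {k j : ℕ} (hx0 : 0 ≤ x) (hx : x ≤ 2 * k / 36000) (hk : j + 1 ≤ 8 * k) :
    x ^ k / (k.factorial : ℝ) ≤ (1 / 3 : ℝ) ^ (j + 1) := by
  have h1 : x ^ k ≤ (2 * k / 36000 : ℝ) ^ k := pow_le_pow_left₀ hx0 hx k
  have h2 : (2 * k / 36000 : ℝ) ^ k = (2 / 36000) ^ k * (k : ℝ) ^ k := by
    rw [← mul_pow]; congr 1; ring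
  have h3 : (k : ℝ) ^ k / (k.factorial : ℝ) ≤ Real.exp k :=
    Real.pow_div_factorial_le_exp (k : ℝ) (by positivity) k
  have h4 : Real.exp k = (Real.exp 1) ^ k := by
    rw [← Real.exp_nat_mul]; simp
  have h5 : Real.exp 1 ≤ 2.72 := by
    have := Real.exp_one_lt_d9; linarith
  have h6 : (Real.exp 1) ^ k ≤ (2.72 : ℝ) ^ k := pow_le_pow_left₀ (Real.exp_pos 1).le h5 k
  have hkf : (0 : ℝ) < k.factorial := by positivity
  calc x ^ k / (k.factorial : ℝ) ≤ ((2 / 36000) ^ k * (k : ℝ) ^ k) / (k.factorial : ℝ) := by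
        rw [← h2]; exact div_le_div_of_nonneg_right h1 hkf.le
    _ = (2 / 36000) ^ k * ((k : ℝ) ^ k / (k.factorial : ℝ)) := by ring
    _ ≤ (2 / 36000) ^ k * (2.72 : ℝ) ^ k := by
        refine mul_le_mul_of_nonneg_left ?_ (by positivity)
        rw [h4] at h3
        exact h3.trans h6
    _ = (2 / 36000 * 2.72 : ℝ) ^ k := by rw [mul_pow]
    _ ≤ ((1 / 3 : ℝ) ^ 8) ^ k := by
        refine pow_le_pow_left₀ (by norm_num) (by norm_num) k
    _ = (1 / 3 : ℝ) ^ (8 * k) := by rw [← pow_mul]
    _ ≤ (1 / 3 : ℝ) ^ (j + 1) := pow_le_pow_of_le_one (by norm_num) (by norm_num) hk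


variable {X : Type*} [Fintype X] [DecidableEq X]

/-- The cost `c_p(G) = ∑_{S ∈ G} p^{|S|}` of a family `G` of subsets of `X`. -/
def cost (G : Finset (Finset X)) (p : ℝ) : ℝ := ∑ S ∈ G, p ^ S.card

/-- The cost `w(g,p) = ∑_{S ⊆ X} g(S) p^{|S|}` of a weight function `g`. -/
def fcost (g : Finset X → ℝ) (p : ℝ) : ℝ := ∑ S : Finset X, g S * p ^ S.card

lemma theta_le {p : ℝ} (hp0 : 0 ≤ p) {n : ℕ} (hn : 1 ≤ n) : (p / 36000) ^ n ≤ p ^ n / 36000 := by
  rw [div_pow]
  have h1 : (36000 : ℝ) ≤ 36000 ^ n := by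
    calc (36000 : ℝ) = 36000 ^ 1 := by norm_num
      _ ≤ 36000 ^ n := pow_le_pow_right₀ (by norm_num) hn
  exact div_le_div_of_nonneg_left (by positivity) (by norm_num) h1

theorem main (g : Finset X → ℝ) (hg0 : ∀ S, 0 ≤ g S) (hg1 : ∀ S, g S ≤ 1)
    (p : ℝ) (hp0 : 0 ≤ p) (hcost : fcost g p ≤ 1 / 2) :
    ∃ G : Finset (Finset X), (∀ H : Finset X, (∃ Mm : Finset (Finset X), (∀ S ∈ Mm, S ⊆ H) ∧
        (∀ S ∈ Mm, ∀ T ∈ Mm, S ≠ T → Disjoint S T) ∧ 1 ≤ ∑ S ∈ Mm, g S) → ∃ T ∈ G, T ⊆ H) ∧
      cost G (p / 36000) ≤ 1 / 2 := by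
  classical
  set I : Finset (Finset X) := Finset.univ.filter (fun S => g S ≠ 0 ∧ S.Nonempty) with hI
  have hIpos : ∀ S ∈ I, 0 < g S := by
    intro S hS
    exact lt_of_le_of_ne (hg0 S) (Ne.symm (Finset.mem_filter.1 hS).2.1)
  have hex : ∀ S : Finset X, ∃ n : ℕ, 0 < g S → ((1 / 2 : ℝ) ^ (n + 1) < g S ∧ g S ≤ (1 / 2 : ℝ) ^ n) := by
    intro S
    by_cases h : 0 < g S
    · obtain ⟨n, hn⟩ := exists_nat_pow_near_of_lt_one h (hg1 S) (by norm_num : (0 : ℝ) < 1 / 2)
        (by norm_num)
      exact ⟨n, fun _ => hn⟩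
    · exact ⟨0, fun h' => absurd h' h⟩
  choose idx hidx using hex
  set J : ℕ := I.sup idx + 1 with hJ
  have hmaps : ∀ S ∈ I, idx S ∈ Finset.range J := by
    intro S hS
    rw [Finset.mem_range, hJ]
    exact Nat.lt_succ_of_le (Finset.le_sup hS)
  set A : ℕ → Finset (Finset X) := fun j => I.filter (fun S => idx S = j) with hA
  set M : ℕ → ℝ := fun j => ∑ S ∈ A j, p ^ S.card with hM
  have hM0 : ∀ j, 0 ≤ M j := fun j => Finset.sum_nonneg (fun S _ => by positivity)
  set y : ℕ → ℝ := fun j => M j / 2 + ((j : ℝ) + 1) / 8 with hy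
  have hy0 : ∀ j, 0 ≤ y j := fun j => by
    have := hM0 j
    simp only [hy]; positivity
  set k : ℕ → ℕ := fun j => ⌊y j⌋₊ + 1 with hk
  have hky : ∀ j, y j < (k j : ℝ) := fun j => by
    simp only [hk]; push_cast; exact Nat.lt_floor_add_one (y j)
  -- the cost split
  have hsplit : fcost g p = g ∅ + ∑ S ∈ I, g S * p ^ S.card := by
    unfold fcost
    rw [← Finset.add_sum_erase Finset.univ _ (Finset.mem_univ (∅ : Finset X))]
    congr 1
    · simp
    · symm
      apply Finset.sum_subset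
      · intro S hS
        rw [Finset.mem_erase]
        exact ⟨(Finset.mem_filter.1 hS).2.2.ne_empty, Finset.mem_univ _⟩
      · intro S hS hS'
        have hne : S.Nonempty := Finset.nonempty_iff_ne_empty.2 (Finset.mem_erase.1 hS).1
        have : g S = 0 := by
          by_contra hc
          exact hS' (Finset.mem_filter.2 ⟨Finset.mem_univ _, hc, hne⟩)
        rw [this, zero_mul]
  have hfib : ∑ j ∈ Finset.range J, ∑ S ∈ A j, g S * p ^ S.card = ∑ S ∈ I, g S * p ^ S.card :=
    Finset.sum_fiberwise_of_maps_to hmaps _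
  have hMsum : ∑ j ∈ Finset.range J, M j / 2 * (1 / 2 : ℝ) ^ j ≤ 1 / 2 - g ∅ := by
    have h1 : ∑ j ∈ Finset.range J, M j / 2 * (1 / 2 : ℝ) ^ j
        ≤ ∑ j ∈ Finset.range J, ∑ S ∈ A j, g S * p ^ S.card := by
      refine Finset.sum_le_sum (fun j _ => ?_)
      simp only [hM]
      rw [Finset.sum_div, Finset.sum_mul]
      refine Finset.sum_le_sum (fun S hS => ?_)
      have hS' := Finset.mem_filter.1 hS
      have h2 := (hidx S (hIpos S hS'.1)).1
      rw [hS'.2] at h2
      have h3 : (0 : ℝ) ≤ p ^ S.card := by positivity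
      have h4 : p ^ S.card / 2 * (1 / 2 : ℝ) ^ j = (1 / 2 : ℝ) ^ (j + 1) * p ^ S.card := by ring
      rw [h4]
      exact mul_le_mul_of_nonneg_right h2.le h3
    rw [hfib] at h1
    linarith
  refine ⟨((Finset.range J).sigma (fun j => (Finset.powersetCard (k j) (A j)).filter
    (fun B => ∀ S ∈ B, ∀ T ∈ B, S ≠ T → Disjoint S T))).image
    (fun x => x.2.biUnion id), ?_, ?_⟩
  · -- covering
    rintro H ⟨Mm, hMH, hMd, hH⟩
    by_contra hno
    push Not at hno
    set AH : ℕ → Finset (Finset X) :=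
      fun j => (I.filter (fun S => S ∈ Mm)).filter (fun S => idx S = j) with hAH
    have hAHsub : ∀ j, AH j ⊆ A j := by
      intro j S hS
      have h1 := Finset.mem_filter.1 hS
      have h2 := Finset.mem_filter.1 h1.1
      exact Finset.mem_filter.2 ⟨h2.1, h1.2⟩
    have hcard : ∀ j ∈ Finset.range J, ((AH j).card : ℝ) ≤ y j := by
      intro j hj
      have hlt : (AH j).card < k j := by
        by_contra hc
        push Not at hc
        obtain ⟨B, hB, hBc⟩ := Finset.exists_subset_card_eq hc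
        have hBM : ∀ S ∈ B, S ∈ Mm := fun S hS =>
          (Finset.mem_filter.1 (Finset.mem_filter.1 (hB hS)).1).2
        have hmem : B.biUnion id ∈ ((Finset.range J).sigma
            (fun j => (Finset.powersetCard (k j) (A j)).filter
              (fun B => ∀ S ∈ B, ∀ T ∈ B, S ≠ T → Disjoint S T))).image
              (fun x => x.2.biUnion id) := by
          refine Finset.mem_image.2 ⟨⟨j, B⟩, ?_, rfl⟩
          rw [Finset.mem_sigma]
          exact ⟨hj, Finset.mem_filter.2 ⟨Finset.mem_powersetCard.2 ⟨hB.trans (hAHsub j), hBc⟩,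
            fun S hS T hT hne => hMd S (hBM S hS) T (hBM T hT) hne⟩⟩
        apply hno _ hmem
        intro a ha
        obtain ⟨S, hS, haS⟩ := Finset.mem_biUnion.1 ha
        exact hMH S (hBM S hS) haS
      have h1 : (AH j).card ≤ ⌊y j⌋₊ := Nat.lt_succ_iff.1 hlt
      calc ((AH j).card : ℝ) ≤ (⌊y j⌋₊ : ℝ) := by exact_mod_cast h1
        _ ≤ y j := Nat.floor_le (hy0 j)
    have hsp : ∑ S ∈ Mm, g S ≤ g ∅ + ∑ S ∈ I.filter (fun S => S ∈ Mm), g S := by
      rw [← Finset.sum_filter_add_sum_filter_not Mm (fun S => S ∈ I)]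
      have e1 : Mm.filter (fun S => S ∈ I) = I.filter (fun S => S ∈ Mm) := by
        ext S
        simp only [Finset.mem_filter]
        tauto
      have e2 : ∑ S ∈ Mm.filter (fun S => ¬ S ∈ I), g S ≤ g ∅ := by
        calc ∑ S ∈ Mm.filter (fun S => ¬ S ∈ I), g S
            = ∑ S ∈ (Mm.filter (fun S => ¬ S ∈ I)).filter (fun S => S = ∅), g S := by
              refine (Finset.sum_filter_of_ne fun S hS hne => ?_).symm
              by_contra hc
              exact (Finset.mem_filter.1 hS).2 (Finset.mem_filter.2 ⟨Finset.mem_univ _, hne,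
                Finset.nonempty_iff_ne_empty.2 hc⟩)
          _ ≤ ∑ S ∈ ({∅} : Finset (Finset X)), g S := by
              refine Finset.sum_le_sum_of_subset_of_nonneg ?_ (fun S _ _ => hg0 S)
              intro S hS
              rw [Finset.mem_singleton]
              exact (Finset.mem_filter.1 hS).2
          _ = g ∅ := Finset.sum_singleton _ _
      rw [e1]
      linarith
    have hfibH : ∑ j ∈ Finset.range J, ∑ S ∈ AH j, g S = ∑ S ∈ I.filter (fun S => S ∈ Mm), g S :=
      Finset.sum_fiberwise_of_maps_to (fun S hS => hmaps S (Finset.mem_filter.1 hS).1) _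
    have hcls : ∀ j ∈ Finset.range J, ∑ S ∈ AH j, g S ≤ y j * (1 / 2 : ℝ) ^ j := by
      intro j hj
      have h1 : ∑ S ∈ AH j, g S ≤ ∑ _S ∈ AH j, (1 / 2 : ℝ) ^ j := by
        refine Finset.sum_le_sum (fun S hS => ?_)
        have hS' := Finset.mem_filter.1 (hAHsub j hS)
        have h2 := (hidx S (hIpos S hS'.1)).2
        rwa [hS'.2] at h2
      rw [Finset.sum_const, nsmul_eq_mul] at h1
      exact h1.trans (mul_le_mul_of_nonneg_right (hcard j hj) (by positivity))
    have htot : ∑ S ∈ I.filter (fun S => S ∈ Mm), g S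
        ≤ ∑ j ∈ Finset.range J, M j / 2 * (1 / 2 : ℝ) ^ j
          + (1 / 8) * ∑ j ∈ Finset.range J, ((j : ℝ) + 1) / 2 ^ j := by
      rw [← hfibH, Finset.mul_sum, ← Finset.sum_add_distrib]
      refine Finset.sum_le_sum (fun j hj => ?_)
      refine (hcls j hj).trans (le_of_eq ?_)
      simp only [hy]
      rw [one_div, inv_pow]
      field_simp
    rw [sum_b] at htot
    have hpos : (0 : ℝ) < (2 * J + 4) / 2 ^ J := by positivity
    linarith
  · -- cost
    unfold cost
    refine (Finset.sum_image_le_of_nonneg (fun u _ => by positivity)).trans ?_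
    rw [Finset.sum_sigma]
    refine le_trans (Finset.sum_le_sum (fun j _ => ?_)) (sum_geo J)
    have hpd : ∀ B ∈ (Finset.powersetCard (k j) (A j)).filter
          (fun B => ∀ S ∈ B, ∀ T ∈ B, S ≠ T → Disjoint S T),
        (p / 36000) ^ (B.biUnion id).card = ∏ S ∈ B, (p / 36000) ^ S.card := by
      intro B hB
      have hBd := (Finset.mem_filter.1 hB).2
      rw [Finset.prod_pow_eq_pow_sum, Finset.card_biUnion]
      · rfl
      · intro S hS T hT hne
        exact hBd S hS T hT hne
    rw [Finset.sum_congr rfl hpd]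
    refine (Finset.sum_le_sum_of_subset_of_nonneg (Finset.filter_subset _ _)
      (fun B _ _ => Finset.prod_nonneg (fun S _ => by positivity))).trans ?_
    refine (esymm_le (fun S : Finset X => (p / 36000) ^ S.card) (fun S => by positivity) (A j)
      (k j)).trans ?_
    apply class_cost
    · exact Finset.sum_nonneg (fun S _ => by positivity)
    · have h1 : ∑ S ∈ A j, (p / 36000) ^ S.card ≤ M j / 36000 := by
        simp only [hM]
        rw [Finset.sum_div]
        refine Finset.sum_le_sum (fun S hS => ?_)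
        have hne := (Finset.mem_filter.1 (Finset.mem_filter.1 hS).1).2.2
        exact theta_le hp0 (Finset.card_pos.2 hne)
      have h2 := hky j
      have h3 : M j / 2 ≤ y j := by
        simp only [hy]
        have : (0 : ℝ) ≤ ((j : ℝ) + 1) / 8 := by positivity
        linarith
      have h4 : M j ≤ 2 * (k j : ℝ) := by linarith
      calc _ ≤ M j / 36000 := h1
        _ ≤ 2 * (k j : ℝ) / 36000 := div_le_div_of_nonneg_right h4 (by norm_num)
    · have h2 := hky j
      have h3 : ((j : ℝ) + 1) / 8 ≤ y j := by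
        simp only [hy]
        have := hM0 j
        linarith
      have h4 : ((j : ℝ) + 1) < 8 * (k j : ℝ) := by linarith
      have h5 : j + 1 < 8 * k j := by exact_mod_cast h4
      exact h5.le

end Vale.Agent.P034.Packing
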