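import Mathlib
import Vale.Agent.P034.Packing

namespace Vale.Agent.P034.Packing
open Finset

lemma geom_le (x : ℝ) (hx0 : 0 ≤ x) (hx : x ≤ 1 / 4) (r : ℕ) :
    ∑ i ∈ range r, x ^ i ≤ 4 / 3 := by
  have h1 := mul_neg_geom_sum x r
  have h2 : 0 ≤ ∑ i ∈ range r, x ^ i := sum_nonneg fun i _ => by positivity
  have h3 : 0 ≤ x ^ r := by positivity
  nlinarith

lemma cap_sum {ι : Type*} (s : Finset ι) (a : ι → ℝ) (ha : ∀ i ∈ s, 0 ≤ a i)
    (h : 1 ≤ ∑ i ∈ s, a i) : 1 ≤ ∑ i ∈ s, min 1 (a i) := by
  by_cases hex : ∃ i ∈ s, 1 ≤ a i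
  · obtain ⟨i, hi, h1⟩ := hex
    calc (1 : ℝ) = min 1 (a i) := (min_eq_left h1).symm
      _ ≤ ∑ i ∈ s, min 1 (a i) :=
        single_le_sum (f := fun i => min 1 (a i)) (fun j hj => le_min zero_le_one (ha j hj)) hi
  · push Not at hex
    rw [sum_congr rfl (fun i hi => min_eq_right (hex i hi).le)]
    exact h

variable {X : Type*} [Fintype X] [DecidableEq X]

theorem laminar (g : Finset X → ℝ) (hg0 : ∀ S, 0 ≤ g S) (p : ℝ) (hp0 : 0 ≤ p) (hp1 : p ≤ 1)
    (hlam : ∀ S T, g S ≠ 0 → g T ≠ 0 → Disjoint S T ∨ S ⊆ T ∨ T ⊆ S)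
    (hcost : fcost g p ≤ 1 / 2) :
    ∃ G : Finset (Finset X), (∀ H : Finset X, 1 ≤ ∑ S ∈ H.powerset, g S → ∃ T ∈ G, T ⊆ H) ∧
      cost G (p / 144000) ≤ 1 / 2 := by
  classical
  set I : Finset (Finset X) := univ.filter (fun S => g S ≠ 0 ∧ S.Nonempty) with hI
  have hIne : ∀ S ∈ I, g S ≠ 0 := fun S hS => (mem_filter.1 hS).2.1
  have hInon : ∀ S ∈ I, S.Nonempty := fun S hS => (mem_filter.1 hS).2.2
  set a : Finset X → ℝ := fun S => 2 * ∑ S' ∈ I.filter (fun S' => S' ⊆ S), g S' with ha
  have ha0 : ∀ S, 0 ≤ a S := fun S => by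
    simp only [ha]
    exact mul_nonneg (by norm_num) (sum_nonneg fun S' _ => hg0 S')
  set G' : Finset X → ℝ := fun S => if S ∈ I then min 1 (a S) else 0 with hG'
  have hG0 : ∀ S, 0 ≤ G' S := fun S => by
    simp only [hG']
    split_ifs
    · exact le_min zero_le_one (ha0 S)
    · exact le_rfl
  have hG1 : ∀ S, G' S ≤ 1 := fun S => by
    simp only [hG']
    split_ifs
    · exact min_le_left _ _
    · exact zero_le_one
  set p' : ℝ := p / 4 with hp'
  have hp'0 : 0 ≤ p' := by positivity
  have hp'1 : p' ≤ 1 / 4 := by rw [hp']; linarith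
  -- the empty set has weight at most 1/2, and the rest costs at most 1/2
  have hsplit : fcost g p = g ∅ + ∑ S ∈ I, g S * p ^ S.card := by
    unfold fcost
    rw [← add_sum_erase univ _ (mem_univ (∅ : Finset X))]
    congr 1
    · simp
    · symm
      apply sum_subset
      · intro S hS
        rw [mem_erase]
        exact ⟨(hInon S hS).ne_empty, mem_univ _⟩
      · intro S hS hS'
        have hne : S.Nonempty := nonempty_iff_ne_empty.2 (mem_erase.1 hS).1
        have : g S = 0 := by
          by_contra hc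
          exact hS' (mem_filter.2 ⟨mem_univ _, hc, hne⟩)
        rw [this, zero_mul]
  have hIcost0 : 0 ≤ ∑ S ∈ I, g S * p ^ S.card :=
    sum_nonneg fun S _ => mul_nonneg (hg0 S) (by positivity)
  have hempty : g ∅ ≤ 1 / 2 := by linarith
  have hIcost : ∑ S ∈ I, g S * p ^ S.card ≤ 1 / 2 := by linarith [hg0 ∅]
  -- chains
  have hchain : ∀ S' ∈ I, ∑ S ∈ I.filter (fun S => S' ⊆ S), p' ^ S.card
      ≤ 4 / 3 * p' ^ S'.card := by
    intro S' hS'
    set Ch := I.filter (fun S => S' ⊆ S) with hCh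
    have hinj : Set.InjOn Finset.card (Ch : Set (Finset X)) := by
      intro S hS T hT hST
      rw [mem_coe] at hS hT
      have hS1 := mem_filter.1 hS
      have hT1 := mem_filter.1 hT
      obtain ⟨x, hx⟩ := hInon S' hS'
      rcases hlam S T (hIne S hS1.1) (hIne T hT1.1) with h | h | h
      · exact absurd (hT1.2 hx) (Finset.disjoint_left.1 h (hS1.2 hx))
      · exact eq_of_subset_of_card_le h hST.ge
      · exact (eq_of_subset_of_card_le h hST.le).symm
    have hsub : Ch.image Finset.card ⊆ Ico S'.card (Fintype.card X + 1) := by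
      intro m hm
      obtain ⟨S, hS, rfl⟩ := mem_image.1 hm
      rw [mem_Ico]
      exact ⟨card_le_card (mem_filter.1 hS).2, Nat.lt_succ_of_le (card_le_univ S)⟩
    calc ∑ S ∈ Ch, p' ^ S.card = ∑ m ∈ Ch.image Finset.card, p' ^ m :=
          (sum_image (f := fun m => p' ^ m) hinj).symm
      _ ≤ ∑ m ∈ Ico S'.card (Fintype.card X + 1), p' ^ m :=
          sum_le_sum_of_subset_of_nonneg hsub (fun _ _ _ => by positivity)
      _ = ∑ i ∈ range (Fintype.card X + 1 - S'.card), p' ^ (S'.card + i) :=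
          sum_Ico_eq_sum_range _ _ _
      _ = p' ^ S'.card * ∑ i ∈ range (Fintype.card X + 1 - S'.card), p' ^ i := by
          rw [mul_sum]
          exact sum_congr rfl fun i _ => pow_add _ _ _
      _ ≤ p' ^ S'.card * (4 / 3) :=
          mul_le_mul_of_nonneg_left (geom_le p' hp'0 hp'1 _) (by positivity)
      _ = _ := by ring
  have hpow : ∀ S' ∈ I, p' ^ S'.card ≤ p ^ S'.card / 4 := by
    intro S' hS'
    have hc : 1 ≤ S'.card := card_pos.2 (hInon S' hS')
    rw [hp', div_pow]
    have h1 : (4 : ℝ) ≤ 4 ^ S'.card := by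
      calc (4 : ℝ) = 4 ^ 1 := by norm_num
        _ ≤ 4 ^ S'.card := pow_le_pow_right₀ (by norm_num) hc
    exact div_le_div_of_nonneg_left (by positivity) (by norm_num) h1
  have hcost' : fcost G' p' ≤ 1 / 2 := by
    unfold fcost
    have e1 : ∑ S : Finset X, G' S * p' ^ S.card = ∑ S ∈ I, min 1 (a S) * p' ^ S.card := by
      rw [hI, sum_filter]
      refine sum_congr rfl fun S _ => ?_
      simp only [hG', hI, mem_filter, mem_univ, true_and]
      split_ifs <;> simp
    rw [e1]
    calc ∑ S ∈ I, min 1 (a S) * p' ^ S.card ≤ ∑ S ∈ I, a S * p' ^ S.card :=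
          sum_le_sum fun S _ => mul_le_mul_of_nonneg_right (min_le_right _ _) (by positivity)
      _ = 2 * ∑ S ∈ I, ∑ S' ∈ I, (if S' ⊆ S then g S' * p' ^ S.card else 0) := by
          rw [mul_sum]
          refine sum_congr rfl fun S _ => ?_
          simp only [ha]
          rw [mul_assoc, sum_mul, sum_filter]
      _ = 2 * ∑ S' ∈ I, g S' * ∑ S ∈ I.filter (fun S => S' ⊆ S), p' ^ S.card := by
          rw [sum_comm]
          congr 1
          refine sum_congr rfl fun S' _ => ?_
          rw [mul_sum]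
          exact (sum_filter (s := I) (fun S => S' ⊆ S) (fun S => g S' * p' ^ S.card)).symm
      _ ≤ 2 * ∑ S' ∈ I, g S' * (4 / 3 * (p ^ S'.card / 4)) := by
          refine mul_le_mul_of_nonneg_left (sum_le_sum fun S' hS' => ?_) (by norm_num)
          refine mul_le_mul_of_nonneg_left ?_ (hg0 S')
          exact (hchain S' hS').trans (mul_le_mul_of_nonneg_left (hpow S' hS') (by norm_num))
      _ = 2 / 3 * ∑ S' ∈ I, g S' * p ^ S'.card := by
          rw [mul_sum, mul_sum]
          exact sum_congr rfl fun S' _ => by ring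
      _ ≤ 1 / 2 := by linarith
  obtain ⟨G, hGc, hGcost⟩ := main G' hG0 hG1 p' hp'0 hcost'
  refine ⟨G, fun H hH => hGc H ?_, ?_⟩
  · set IH := I.filter (fun S => S ⊆ H) with hIH
    set Mm := IH.filter (fun S => ∀ T ∈ IH, S ⊆ T → S = T) with hMm
    have hMI : ∀ S ∈ Mm, S ∈ I := fun S hS => (mem_filter.1 (mem_filter.1 hS).1).1
    refine ⟨Mm, fun S hS => (mem_filter.1 (mem_filter.1 hS).1).2, ?_, ?_⟩
    · intro S hS T hT hne
      have hS1 := mem_filter.1 hS
      have hT1 := mem_filter.1 hT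
      rcases hlam S T (hIne S (hMI S hS)) (hIne T (hMI T hT)) with h | h | h
      · exact h
      · exact absurd (hS1.2 T hT1.1 h) hne
      · exact absurd (hT1.2 S hS1.1 h).symm hne
    · have hsp : ∑ S ∈ H.powerset, g S = g ∅ + ∑ S ∈ IH, g S := by
        rw [← add_sum_erase H.powerset _ (empty_mem_powerset H)]
        congr 1
        symm
        apply sum_subset
        · intro S hS
          have h1 := mem_filter.1 hS
          rw [mem_erase, mem_powerset]
          exact ⟨(hInon S h1.1).ne_empty, h1.2⟩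
        · intro S hS hS'
          have h1 := mem_erase.1 hS
          have hne : S.Nonempty := nonempty_iff_ne_empty.2 h1.1
          by_contra hc
          exact hS' (mem_filter.2 ⟨mem_filter.2 ⟨mem_univ _, hc, hne⟩, mem_powerset.1 h1.2⟩)
      have hhalf : 1 / 2 ≤ ∑ S ∈ IH, g S := by linarith
      have hmax : ∀ S ∈ IH, ∃ M ∈ Mm, S ⊆ M := by
        intro S hS
        obtain ⟨M, hM, hMmax⟩ := exists_max_image (IH.filter (fun T => S ⊆ T)) Finset.card
          ⟨S, mem_filter.2 ⟨hS, Subset.refl S⟩⟩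
        have hM1 := mem_filter.1 hM
        refine ⟨M, mem_filter.2 ⟨hM1.1, fun T hT hMT => ?_⟩, hM1.2⟩
        exact eq_of_subset_of_card_le hMT (hMmax T (mem_filter.2 ⟨hT, hM1.2.trans hMT⟩))
      have hcount : ∑ S ∈ IH, g S ≤ ∑ M ∈ Mm, ∑ S' ∈ I.filter (fun S' => S' ⊆ M), g S' := by
        calc ∑ S ∈ IH, g S ≤ ∑ S ∈ IH, ∑ M ∈ Mm, (if S ⊆ M then g S else 0) := by
              refine sum_le_sum fun S hS => ?_
              obtain ⟨M, hM, hSM⟩ := hmax S hS
              calc g S = (if S ⊆ M then g S else 0) := by rw [if_pos hSM]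
                _ ≤ ∑ M ∈ Mm, (if S ⊆ M then g S else 0) :=
                  single_le_sum (f := fun M => if S ⊆ M then g S else 0)
                    (fun M' _ => by split_ifs; exact hg0 S; exact le_rfl) hM
          _ = ∑ M ∈ Mm, ∑ S ∈ IH.filter (fun S => S ⊆ M), g S := by
              rw [sum_comm]
              exact sum_congr rfl fun M _ => (sum_filter _ _).symm
          _ ≤ _ := by
              refine sum_le_sum fun M _ => ?_
              refine sum_le_sum_of_subset_of_nonneg ?_ (fun S _ _ => hg0 S)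
              intro S hS
              have h1 := mem_filter.1 hS
              exact mem_filter.2 ⟨(mem_filter.1 h1.1).1, h1.2⟩
      have hsum : 1 ≤ ∑ M ∈ Mm, a M := by
        simp only [ha]
        rw [← mul_sum]
        linarith
      have := cap_sum Mm a (fun M _ => ha0 M) hsum
      refine this.trans (le_of_eq ?_)
      refine sum_congr rfl fun M hM => ?_
      simp only [hG']
      rw [if_pos (hMI M hM)]
  · have : p / 144000 = p' / 36000 := by rw [hp']; ring
    rw [this]
    exact hGcost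

end Vale.Agent.P034.Packing
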