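import Mathlib
import Vale.Agent.P034.Laminar

namespace Vale.Agent.P034.Packing
open Finset

variable {X : Type*} [Fintype X] [DecidableEq X]

/-- general reduction to packing covers: `J` is a family of nonempty sets containing the support,
closed under unions of intersecting members -/
theorem closure_cover (g : Finset X → ℝ) (hg0 : ∀ S, 0 ≤ g S) (hempty : g ∅ ≤ 1 / 2)
    (p' : ℝ) (hp'0 : 0 ≤ p') (J : Finset (Finset X))
    (hJ : ∀ S, g S ≠ 0 → S.Nonempty → S ∈ J)
    (hU : ∀ R1 ∈ J, ∀ R2 ∈ J, ¬ Disjoint R1 R2 → R1 ∪ R2 ∈ J)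
    (hcost : 2 * ∑ S' ∈ univ.filter (fun S : Finset X => g S ≠ 0 ∧ S.Nonempty),
      g S' * ∑ R ∈ J.filter (fun R => S' ⊆ R), p' ^ R.card ≤ 1 / 2) :
    ∃ G : Finset (Finset X), (∀ H : Finset X, 1 ≤ ∑ S ∈ H.powerset, g S → ∃ T ∈ G, T ⊆ H) ∧
      cost G (p' / 36000) ≤ 1 / 2 := by
  classical
  set I : Finset (Finset X) := univ.filter (fun S => g S ≠ 0 ∧ S.Nonempty) with hI
  have hIne : ∀ S ∈ I, g S ≠ 0 := fun S hS => (mem_filter.1 hS).2.1
  have hInon : ∀ S ∈ I, S.Nonempty := fun S hS => (mem_filter.1 hS).2.2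
  set a : Finset X → ℝ := fun S => 2 * ∑ S' ∈ I.filter (fun S' => S' ⊆ S), g S' with ha
  have ha0 : ∀ S, 0 ≤ a S := fun S => by
    simp only [ha]
    exact mul_nonneg (by norm_num) (sum_nonneg fun S' _ => hg0 S')
  set G' : Finset X → ℝ := fun S => if S ∈ J then min 1 (a S) else 0 with hG'
  have hG0 : ∀ S, 0 ≤ G' S := fun S => by
    simp only [hG']
    split_ifs
    · exact le_min zero_le_one (ha0 S)
    · exact le_rfl
  have hG1 : ∀ S, G' S ≤ 1 := fun S => by
    simp only [hG']
    split_ifs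
    · exact min_le_left _ _
    · exact zero_le_one
  have hcost' : fcost G' p' ≤ 1 / 2 := by
    unfold fcost
    have e1 : ∑ S : Finset X, G' S * p' ^ S.card = ∑ S ∈ J, min 1 (a S) * p' ^ S.card := by
      have : ∑ S ∈ J, min 1 (a S) * p' ^ S.card
          = ∑ S : Finset X, (if S ∈ J then min 1 (a S) * p' ^ S.card else 0) := by
        rw [← sum_filter]
        congr 1
        ext S
        simp
      rw [this]
      refine sum_congr rfl fun S _ => ?_
      simp only [hG']
      split_ifs <;> simp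
    rw [e1]
    calc ∑ S ∈ J, min 1 (a S) * p' ^ S.card ≤ ∑ S ∈ J, a S * p' ^ S.card :=
          sum_le_sum fun S _ => mul_le_mul_of_nonneg_right (min_le_right _ _) (by positivity)
      _ = 2 * ∑ S ∈ J, ∑ S' ∈ I, (if S' ⊆ S then g S' * p' ^ S.card else 0) := by
          rw [mul_sum]
          refine sum_congr rfl fun S _ => ?_
          simp only [ha]
          rw [mul_assoc, sum_mul]
          congr 1
          exact sum_filter (s := I) (fun S' => S' ⊆ S) (fun S' => g S' * p' ^ S.card)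
      _ = 2 * ∑ S' ∈ I, g S' * ∑ S ∈ J.filter (fun S => S' ⊆ S), p' ^ S.card := by
          rw [sum_comm]
          congr 1
          refine sum_congr rfl fun S' _ => ?_
          rw [mul_sum]
          exact (sum_filter (s := J) (fun S => S' ⊆ S) (fun S => g S' * p' ^ S.card)).symm
      _ ≤ 1 / 2 := hcost
  obtain ⟨G, hGc, hGcost⟩ := main G' hG0 hG1 p' hp'0 hcost'
  refine ⟨G, fun H hH => hGc H ?_, hGcost⟩
  set IH := I.filter (fun S => S ⊆ H) with hIH
  set JH := J.filter (fun S => S ⊆ H) with hJH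
  set Mm := JH.filter (fun S => ∀ T ∈ JH, S ⊆ T → S = T) with hMm
  have hMJ : ∀ S ∈ Mm, S ∈ J := fun S hS => (mem_filter.1 (mem_filter.1 hS).1).1
  refine ⟨Mm, fun S hS => (mem_filter.1 (mem_filter.1 hS).1).2, ?_, ?_⟩
  · intro S hS T hT hne
    by_contra hnd
    have hS1 := mem_filter.1 hS
    have hT1 := mem_filter.1 hT
    have hST : S ∪ T ∈ JH := mem_filter.2 ⟨hU S (hMJ S hS) T (hMJ T hT) hnd,
      union_subset (mem_filter.1 hS1.1).2 (mem_filter.1 hT1.1).2⟩
    have e1 := hS1.2 _ hST subset_union_left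
    have e2 := hT1.2 _ hST subset_union_right
    exact hne (e1.trans e2.symm)
  · have hsp : ∑ S ∈ H.powerset, g S = g ∅ + ∑ S ∈ IH, g S := by
      rw [← add_sum_erase H.powerset _ (empty_mem_powerset H)]
      congr 1
      symm
      apply sum_subset
      · intro S hS
        have h1 := mem_filter.1 hS
        rw [mem_erase, mem_powerset]
        exact ⟨(hInon S h1.1).ne_empty, h1.2⟩
      · intro S hS hS'
        have h1 := mem_erase.1 hS
        have hne : S.Nonempty := nonempty_iff_ne_empty.2 h1.1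
        by_contra hc
        exact hS' (mem_filter.2 ⟨mem_filter.2 ⟨mem_univ _, hc, hne⟩, mem_powerset.1 h1.2⟩)
    have hhalf : 1 / 2 ≤ ∑ S ∈ IH, g S := by linarith
    have hmax : ∀ S ∈ IH, ∃ M ∈ Mm, S ⊆ M := by
      intro S hS
      have hS1 := mem_filter.1 hS
      have hSJ : S ∈ JH := mem_filter.2 ⟨hJ S (hIne S hS1.1) (hInon S hS1.1), hS1.2⟩
      obtain ⟨M, hM, hMmax⟩ := exists_max_image (JH.filter (fun T => S ⊆ T)) Finset.card
        ⟨S, mem_filter.2 ⟨hSJ, Subset.refl S⟩⟩
      have hM1 := mem_filter.1 hM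
      refine ⟨M, mem_filter.2 ⟨hM1.1, fun T hT hMT => ?_⟩, hM1.2⟩
      exact eq_of_subset_of_card_le hMT (hMmax T (mem_filter.2 ⟨hT, hM1.2.trans hMT⟩))
    have hcount : ∑ S ∈ IH, g S ≤ ∑ M ∈ Mm, ∑ S' ∈ I.filter (fun S' => S' ⊆ M), g S' := by
      calc ∑ S ∈ IH, g S ≤ ∑ S ∈ IH, ∑ M ∈ Mm, (if S ⊆ M then g S else 0) := by
            refine sum_le_sum fun S hS => ?_
            obtain ⟨M, hM, hSM⟩ := hmax S hS
            calc g S = (if S ⊆ M then g S else 0) := by rw [if_pos hSM]
              _ ≤ ∑ M ∈ Mm, (if S ⊆ M then g S else 0) :=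
                single_le_sum (f := fun M => if S ⊆ M then g S else 0)
                  (fun M' _ => by split_ifs; exact hg0 S; exact le_rfl) hM
        _ = ∑ M ∈ Mm, ∑ S ∈ IH.filter (fun S => S ⊆ M), g S := by
            rw [sum_comm]
            exact sum_congr rfl fun M _ => (sum_filter _ _).symm
        _ ≤ _ := by
            refine sum_le_sum fun M _ => ?_
            refine sum_le_sum_of_subset_of_nonneg ?_ (fun S _ _ => hg0 S)
            intro S hS
            have h1 := mem_filter.1 hS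
            exact mem_filter.2 ⟨(mem_filter.1 h1.1).1, h1.2⟩
    have hsum : 1 ≤ ∑ M ∈ Mm, a M := by
      simp only [ha]
      rw [← mul_sum]
      linarith
    have := cap_sum Mm a (fun M _ => ha0 M) hsum
    refine this.trans (le_of_eq ?_)
    refine sum_congr rfl fun M hM => ?_
    simp only [hG']
    rw [if_pos (hMJ M hM)]

end Vale.Agent.P034.Packing
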