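import Mathlib
import Vale.Agent.P064.ForestLog

open Finset

namespace Vale.Agent.P034

open Vale.Agent.P064

/-- `G` contains a copy of `H` -/
def Contains {n : ℕ} (H G : SimpleGraph (Fin n)) : Prop :=
  ∃ H' : SimpleGraph (Fin n), H' ≤ G ∧ Nonempty (H' ≃g H)

noncomputable def cost {n : ℕ} (C : Finset (SimpleGraph (Fin n))) (p : ℝ) : ℝ :=
  ∑ S ∈ C, p ^ S.edgeSet.ncard

noncomputable def fcost {n : ℕ} (g : SimpleGraph (Fin n) → ℝ) (p : ℝ) : ℝ :=
  ∑ S, g S * p ^ S.edgeSet.ncard

def Covers {n : ℕ} (C : Finset (SimpleGraph (Fin n))) (H : SimpleGraph (Fin n)) : Prop :=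
  ∀ G, Contains H G → ∃ S ∈ C, S ≤ G

def IsFracCover {n : ℕ} (g : SimpleGraph (Fin n) → ℝ) (H : SimpleGraph (Fin n)) : Prop :=
  (∀ S, 0 ≤ g S ∧ g S ≤ 1) ∧
    ∀ G, Contains H G → 1 ≤ ∑ S, Set.indicator {S : SimpleGraph (Fin n) | S ≤ G} g S

theorem edges_iso {V : Type} {G G' : SimpleGraph V} (e : G ≃g G') :
    G.edgeSet.ncard = G'.edgeSet.ncard := by
  rw [← Nat.card_coe_set_eq, ← Nat.card_coe_set_eq]
  exact Nat.card_congr e.mapEdgeSet

theorem general (n : ℕ) (H : SimpleGraph (Fin n)) (P : SimpleGraph (Fin n) → Prop) (p q : ℝ)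
    (hq0 : 0 ≤ q) (hqp : q ≤ p)
    (hclass : ∀ S : SimpleGraph (Fin n), ∀ π : Equiv.Perm (Fin n),
      (∀ a b, S.Adj a b → H.Adj (π a) (π b)) → P S)
    (hcomp : q ≤ 1 → (∀ F : SimpleGraph (Fin n), F ≤ H →
        1 / 2 ≤ (subCount ⊤ F : ℝ) * q ^ F.edgeSet.ncard) →
      ∀ S, P S → (subCount H S : ℝ) ≤ (subCount ⊤ S : ℝ) * p ^ S.edgeSet.ncard)
    (g : SimpleGraph (Fin n) → ℝ) (hg : IsFracCover g H) (hcost : fcost g p ≤ 1 / 2) :
    ∃ C : Finset (SimpleGraph (Fin n)), Covers C H ∧ cost C q ≤ 1 / 2 := by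
  classical
  have hp0 : 0 ≤ p := hq0.trans hqp
  -- step 0
  have hp1 : p < 1 := by
    by_contra hp
    have hp : 1 ≤ p := not_lt.mp hp
    have h1 := hg.2 H ⟨H, le_rfl, ⟨SimpleGraph.Iso.refl⟩⟩
    have h2 : ∑ S, Set.indicator {S : SimpleGraph (Fin n) | S ≤ H} g S ≤ fcost g p := by
      unfold fcost
      refine Finset.sum_le_sum fun S _ => ?_
      have hgS := (hg.1 S).1
      have hpow : (1 : ℝ) ≤ p ^ S.edgeSet.ncard := one_le_pow₀ hp
      calc Set.indicator {S : SimpleGraph (Fin n) | S ≤ H} g S ≤ g S :=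
            Set.indicator_le_self' (fun x _ => (hg.1 x).1) S
        _ ≤ g S * p ^ S.edgeSet.ncard := le_mul_of_one_le_right hgS hpow
    linarith
  have hq1 : q ≤ 1 := hqp.trans hp1.le
  by_cases hex : ∃ F : SimpleGraph (Fin n), F ≤ H ∧
      (subCount ⊤ F : ℝ) * q ^ F.edgeSet.ncard < 1 / 2
  · obtain ⟨F, hFH, hF⟩ := hex
    refine ⟨univ.filter (fun G' : SimpleGraph (Fin n) => Nonempty (G' ≃g F)), ?_, ?_⟩
    · rintro G ⟨H', hH'G, ⟨ψ⟩⟩
      refine ⟨F.comap ψ, mem_filter.mpr ⟨mem_univ _, ⟨SimpleGraph.Iso.comap ψ.toEquiv F⟩⟩, ?_⟩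
      intro a b hab
      have h1 : F.Adj (ψ a) (ψ b) := hab
      exact hH'G (ψ.map_adj_iff.mp (hFH h1))
    · unfold cost
      have h1 : ∀ S ∈ univ.filter (fun G' : SimpleGraph (Fin n) => Nonempty (G' ≃g F)),
          q ^ S.edgeSet.ncard = q ^ F.edgeSet.ncard := by
        intro S hS
        obtain ⟨e⟩ := (mem_filter.mp hS).2
        rw [edges_iso e]
      rw [Finset.sum_congr rfl h1, Finset.sum_const, nsmul_eq_mul]
      have h2 : (univ.filter (fun G' : SimpleGraph (Fin n) => Nonempty (G' ≃g F))).card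
          = subCount ⊤ F := by
        rw [subCount, ← Set.ncard_coe_finset]
        congr 1
        ext G'
        simp
      rw [h2]
      exact hF.le
  · exfalso
    have hyp : ∀ F : SimpleGraph (Fin n), F ≤ H →
        1 / 2 ≤ (subCount ⊤ F : ℝ) * q ^ F.edgeSet.ncard := by
      intro F hF
      by_contra h
      exact hex ⟨F, hF, not_le.mp h⟩
    have hcmp := hcomp hq1 hyp
    set N : ℕ := Nat.card (Equiv.Perm (Fin n)) with hN
    have hNpos : (0 : ℝ) < N := by exact_mod_cast (Nat.card_pos : 0 < Nat.card (Equiv.Perm (Fin n)))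
    have hperm : ∀ S : SimpleGraph (Fin n), (permCount S H : ℝ) ≤ N * p ^ S.edgeSet.ncard := by
      intro S
      by_cases h0 : permCount S H = 0
      · rw [h0]; simp only [Nat.cast_zero]; positivity
      · have hne : {π : Equiv.Perm (Fin n) | ∀ a b, S.Adj a b → H.Adj (π a) (π b)}.Nonempty := by
          by_contra hemp
          rw [Set.not_nonempty_iff_eq_empty] at hemp
          apply h0
          rw [permCount, hemp, Set.ncard_empty]
        obtain ⟨π, hπ⟩ := hne
        have hPS := hclass S π hπ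
        have h1 := hcmp S hPS
        have h2 : (subCount H S : ℝ) * N = (subCount ⊤ S : ℝ) * (permCount S H : ℝ) := by
          exact_mod_cast subCount_mul S H
        have h3 : (0 : ℝ) < (subCount ⊤ S : ℝ) := by
          have : 0 < subCount ⊤ S := by
            unfold subCount
            rw [Set.ncard_pos (Set.toFinite _)]
            exact ⟨S, le_top, ⟨SimpleGraph.Iso.refl⟩⟩
          exact_mod_cast this
        have h4 : (subCount ⊤ S : ℝ) * (permCount S H : ℝ)
            ≤ (subCount ⊤ S : ℝ) * (N * p ^ S.edgeSet.ncard) := by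
          calc (subCount ⊤ S : ℝ) * (permCount S H : ℝ) = (subCount H S : ℝ) * N := h2.symm
            _ ≤ ((subCount ⊤ S : ℝ) * p ^ S.edgeSet.ncard) * N := by gcongr
            _ = _ := by ring
        exact le_of_mul_le_mul_left h4 h3
    have hsum : ∀ π : Equiv.Perm (Fin n),
        (1 : ℝ) ≤ ∑ S, Set.indicator {S : SimpleGraph (Fin n) | S ≤ H.comap π} g S :=
      fun π => hg.2 _ ⟨H.comap π, le_rfl, ⟨SimpleGraph.Iso.comap π H⟩⟩
    have h1 : (N : ℝ) ≤ ∑ π : Equiv.Perm (Fin n),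
        ∑ S, Set.indicator {S : SimpleGraph (Fin n) | S ≤ H.comap π} g S := by
      calc (N : ℝ) = ∑ _π : Equiv.Perm (Fin n), (1 : ℝ) := by
            rw [Finset.sum_const, nsmul_eq_mul, mul_one, hN, Nat.card_eq_fintype_card,
              Finset.card_univ]
        _ ≤ _ := Finset.sum_le_sum fun π _ => hsum π
    rw [Finset.sum_comm] at h1
    have h2 : ∀ S : SimpleGraph (Fin n),
        ∑ π : Equiv.Perm (Fin n), Set.indicator {S : SimpleGraph (Fin n) | S ≤ H.comap π} g S
          = g S * (permCount S H : ℝ) := by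
      intro S
      have : ∀ π : Equiv.Perm (Fin n),
          Set.indicator {S : SimpleGraph (Fin n) | S ≤ H.comap π} g S
            = if (∀ a b, S.Adj a b → H.Adj (π a) (π b)) then g S else 0 := by
        intro π
        rw [Set.indicator_apply]
        have hiff : (S ∈ {S : SimpleGraph (Fin n) | S ≤ H.comap π})
            ↔ (∀ a b, S.Adj a b → H.Adj (π a) (π b)) := Iff.rfl
        simp only [hiff]
      rw [Finset.sum_congr rfl (fun π _ => this π), ← Finset.sum_filter, Finset.sum_const,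
        nsmul_eq_mul, mul_comm]
      congr 2
      rw [permCount, ← Set.ncard_coe_finset]
      congr 1
      ext π
      simp
    rw [Finset.sum_congr rfl (fun S _ => h2 S)] at h1
    have h3 : ∑ S, g S * (permCount S H : ℝ) ≤ N * fcost g p := by
      unfold fcost
      rw [Finset.mul_sum]
      refine Finset.sum_le_sum fun S _ => ?_
      calc g S * (permCount S H : ℝ) ≤ g S * (N * p ^ S.edgeSet.ncard) :=
            mul_le_mul_of_nonneg_left (hperm S) (hg.1 S).1
        _ = N * (g S * p ^ S.edgeSet.ncard) := by ring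
    have h4 : (N : ℝ) ≤ N * (1 / 2) := by
      calc (N : ℝ) ≤ N * fcost g p := h1.trans h3
        _ ≤ N * (1 / 2) := by gcongr
    linarith

end Vale.Agent.P034
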