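import Mathlib
import Vale.Agent.P034.Closure

namespace Vale.Agent.P034.Packing
open Finset

lemma below_sum (N : ℕ) (a : Fin N) (x : ℝ) (hx0 : 0 ≤ x) (hx : x ≤ 1 / 4) :
    ∑ c ∈ Iic a, x ^ ((a : ℕ) - (c : ℕ)) ≤ 4 / 3 := by
  have hinj : Set.InjOn (fun c : Fin N => (a : ℕ) - (c : ℕ)) (Iic a : Finset (Fin N)) := by
    intro c hc c' hc' h
    rw [mem_coe, mem_Iic, Fin.le_def] at hc hc'
    apply Fin.ext
    simp only at h
    omega
  calc ∑ c ∈ Iic a, x ^ ((a : ℕ) - (c : ℕ))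
      = ∑ i ∈ (Iic a).image (fun c : Fin N => (a : ℕ) - (c : ℕ)), x ^ i :=
        (sum_image (f := fun i => x ^ i) hinj).symm
    _ ≤ ∑ i ∈ range N, x ^ i := by
        refine sum_le_sum_of_subset_of_nonneg ?_ (fun _ _ _ => by positivity)
        intro i hi
        obtain ⟨c, -, rfl⟩ := mem_image.1 hi
        rw [mem_range]
        have := a.isLt
        omega
    _ ≤ 4 / 3 := geom_le x hx0 hx N

lemma above_sum (N : ℕ) (b : Fin N) (x : ℝ) (hx0 : 0 ≤ x) (hx : x ≤ 1 / 4) :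
    ∑ d ∈ Ici b, x ^ ((d : ℕ) - (b : ℕ)) ≤ 4 / 3 := by
  have hinj : Set.InjOn (fun d : Fin N => (d : ℕ) - (b : ℕ)) (Ici b : Finset (Fin N)) := by
    intro c hc c' hc' h
    rw [mem_coe, mem_Ici, Fin.le_def] at hc hc'
    apply Fin.ext
    simp only at h
    omega
  calc ∑ d ∈ Ici b, x ^ ((d : ℕ) - (b : ℕ))
      = ∑ i ∈ (Ici b).image (fun d : Fin N => (d : ℕ) - (b : ℕ)), x ^ i :=
        (sum_image (f := fun i => x ^ i) hinj).symm
    _ ≤ ∑ i ∈ range N, x ^ i := by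
        refine sum_le_sum_of_subset_of_nonneg ?_ (fun _ _ _ => by positivity)
        intro i hi
        obtain ⟨d, -, rfl⟩ := mem_image.1 hi
        rw [mem_range]
        have := d.isLt
        omega
    _ ≤ 4 / 3 := geom_le x hx0 hx N

theorem intervals (N : ℕ) (g : Finset (Fin N) → ℝ) (hg0 : ∀ S, 0 ≤ g S) (p : ℝ) (hp0 : 0 ≤ p)
    (hp1 : p ≤ 1) (hint : ∀ S, g S ≠ 0 → ∃ c d : Fin N, S = Icc c d)
    (hcost : fcost g p ≤ 1 / 2) :
    ∃ G : Finset (Finset (Fin N)),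
      (∀ H : Finset (Fin N), 1 ≤ ∑ S ∈ H.powerset, g S → ∃ T ∈ G, T ⊆ H) ∧
      cost G (p / 144000) ≤ 1 / 2 := by
  classical
  set p' : ℝ := p / 4 with hp'
  have hp'0 : 0 ≤ p' := by positivity
  have hp'1 : p' ≤ 1 / 4 := by rw [hp']; linarith
  set J : Finset (Finset (Fin N)) :=
    (univ.filter (fun z : Fin N × Fin N => z.1 ≤ z.2)).image (fun z => Icc z.1 z.2) with hJdef
  have hempty : g ∅ ≤ 1 / 2 := by
    have : g ∅ * p ^ (∅ : Finset (Fin N)).card ≤ fcost g p :=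
      single_le_sum (f := fun S : Finset (Fin N) => g S * p ^ S.card)
        (fun S _ => mul_nonneg (hg0 S) (by positivity)) (mem_univ ∅)
    simp only [card_empty, pow_zero, mul_one] at this
    linarith
  have hJ : ∀ S, g S ≠ 0 → S.Nonempty → S ∈ J := by
    intro S hS hne
    obtain ⟨c, d, rfl⟩ := hint S hS
    exact mem_image.2 ⟨(c, d), mem_filter.2 ⟨mem_univ _, nonempty_Icc.1 hne⟩, rfl⟩
  have hU : ∀ R1 ∈ J, ∀ R2 ∈ J, ¬ Disjoint R1 R2 → R1 ∪ R2 ∈ J := by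
    intro R1 h1 R2 h2 hnd
    obtain ⟨⟨c1, d1⟩, hz1, rfl⟩ := mem_image.1 h1
    obtain ⟨⟨c2, d2⟩, hz2, rfl⟩ := mem_image.1 h2
    have hc1 : c1 ≤ d1 := (mem_filter.1 hz1).2
    rw [not_disjoint_iff] at hnd
    obtain ⟨x, hx1, hx2⟩ := hnd
    simp only [mem_Icc] at hx1 hx2
    refine mem_image.2 ⟨(min c1 c2, max d1 d2), mem_filter.2 ⟨mem_univ _,
      (min_le_left _ _).trans (hc1.trans (le_max_left _ _))⟩, ?_⟩
    ext y
    simp only [mem_union, mem_Icc, min_le_iff, le_max_iff]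
    constructor
    · rintro ⟨h1 | h1, h2 | h2⟩
      · exact Or.inl ⟨h1, h2⟩
      · rcases le_total y x with h | h
        · exact Or.inl ⟨h1, h.trans hx1.2⟩
        · exact Or.inr ⟨hx2.1.trans h, h2⟩
      · rcases le_total y x with h | h
        · exact Or.inr ⟨h1, h.trans hx2.2⟩
        · exact Or.inl ⟨hx1.1.trans h, h2⟩
      · exact Or.inr ⟨h1, h2⟩
    · rintro (⟨h1, h2⟩ | ⟨h1, h2⟩)
      · exact ⟨Or.inl h1, Or.inl h2⟩
      · exact ⟨Or.inr h1, Or.inr h2⟩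
  set I : Finset (Finset (Fin N)) := univ.filter (fun S => g S ≠ 0 ∧ S.Nonempty) with hI
  have hkey : ∀ S' ∈ I, ∑ R ∈ J.filter (fun R => S' ⊆ R), p' ^ R.card
      ≤ 16 / 9 * (p ^ S'.card / 4) := by
    intro S' hS'
    have hS1 := (mem_filter.1 hS').2
    obtain ⟨a, b, rfl⟩ := hint S' hS1.1
    have hab : a ≤ b := nonempty_Icc.1 hS1.2
    have hab' : (a : ℕ) ≤ (b : ℕ) := hab
    have hsub : J.filter (fun R => Icc a b ⊆ R)
        ⊆ (Iic a ×ˢ Ici b).image (fun z : Fin N × Fin N => Icc z.1 z.2) := by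
      intro R hR
      have hR1 := mem_filter.1 hR
      obtain ⟨⟨c, d⟩, -, rfl⟩ := mem_image.1 hR1.1
      have := (Icc_subset_Icc_iff hab).1 hR1.2
      exact mem_image.2 ⟨(c, d), mem_product.2 ⟨mem_Iic.2 this.1, mem_Ici.2 this.2⟩, rfl⟩
    have hcard : (1 : ℕ) ≤ (Icc a b).card := card_pos.2 hS1.2
    have hpow : p' ^ (Icc a b).card ≤ p ^ (Icc a b).card / 4 := by
      rw [hp', div_pow]
      have h1 : (4 : ℝ) ≤ 4 ^ (Icc a b).card := by
        calc (4 : ℝ) = 4 ^ 1 := by norm_num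
          _ ≤ 4 ^ (Icc a b).card := pow_le_pow_right₀ (by norm_num) hcard
      exact div_le_div_of_nonneg_left (by positivity) (by norm_num) h1
    calc ∑ R ∈ J.filter (fun R => Icc a b ⊆ R), p' ^ R.card
        ≤ ∑ R ∈ (Iic a ×ˢ Ici b).image (fun z : Fin N × Fin N => Icc z.1 z.2), p' ^ R.card :=
          sum_le_sum_of_subset_of_nonneg hsub (fun _ _ _ => by positivity)
      _ ≤ ∑ z ∈ Iic a ×ˢ Ici b, p' ^ (Icc z.1 z.2).card :=
          sum_image_le_of_nonneg (fun u _ => by positivity)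
      _ = ∑ z ∈ Iic a ×ˢ Ici b, p' ^ (Icc a b).card *
            (p' ^ ((a : ℕ) - (z.1 : ℕ)) * p' ^ ((z.2 : ℕ) - (b : ℕ))) := by
          refine sum_congr rfl fun z hz => ?_
          obtain ⟨h1, h2⟩ := mem_product.1 hz
          rw [mem_Iic, Fin.le_def] at h1
          rw [mem_Ici, Fin.le_def] at h2
          rw [← pow_add, ← pow_add, Fin.card_Icc, Fin.card_Icc]
          congr 1
          omega
      _ = p' ^ (Icc a b).card * ((∑ c ∈ Iic a, p' ^ ((a : ℕ) - (c : ℕ))) *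
            (∑ d ∈ Ici b, p' ^ ((d : ℕ) - (b : ℕ)))) := by
          rw [← mul_sum, sum_product, sum_mul_sum]
      _ ≤ (p ^ (Icc a b).card / 4) * ((4 / 3) * (4 / 3)) := by
          refine mul_le_mul hpow ?_ ?_ (by positivity)
          · exact mul_le_mul (below_sum N a p' hp'0 hp'1) (above_sum N b p' hp'0 hp'1)
              (sum_nonneg fun _ _ => by positivity) (by norm_num)
          · exact mul_nonneg (sum_nonneg fun _ _ => by positivity)
              (sum_nonneg fun _ _ => by positivity)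
      _ = _ := by ring
  have hIcost : ∑ S ∈ I, g S * p ^ S.card ≤ 1 / 2 := by
    refine le_trans ?_ hcost
    unfold fcost
    exact sum_le_sum_of_subset_of_nonneg (subset_univ _)
      (fun S _ _ => mul_nonneg (hg0 S) (by positivity))
  have hc : 2 * ∑ S' ∈ I, g S' * ∑ R ∈ J.filter (fun R => S' ⊆ R), p' ^ R.card ≤ 1 / 2 := by
    calc 2 * ∑ S' ∈ I, g S' * ∑ R ∈ J.filter (fun R => S' ⊆ R), p' ^ R.card
        ≤ 2 * ∑ S' ∈ I, g S' * (16 / 9 * (p ^ S'.card / 4)) := by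
          refine mul_le_mul_of_nonneg_left (sum_le_sum fun S' hS' => ?_) (by norm_num)
          exact mul_le_mul_of_nonneg_left (hkey S' hS') (hg0 S')
      _ = 8 / 9 * ∑ S' ∈ I, g S' * p ^ S'.card := by
          rw [mul_sum, mul_sum]
          exact sum_congr rfl fun S' _ => by ring
      _ ≤ 1 / 2 := by linarith
  obtain ⟨G, h1, h2⟩ := closure_cover g hg0 hempty p' hp'0 J hJ hU hc
  refine ⟨G, h1, ?_⟩
  have : p / 144000 = p' / 36000 := by rw [hp']; ring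
  rw [this]
  exact h2

end Vale.Agent.P034.Packing
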