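import Mathlib
import Vale.Agent.P034.Laminar

namespace Vale.Agent.P034.Packing
open Finset

variable {X : Type*} [Fintype X] [DecidableEq X]

theorem multi_laminar (m : ℕ) (cls : Finset X → Fin m) (g : Finset X → ℝ) (hg0 : ∀ S, 0 ≤ g S)
    (p : ℝ) (hp0 : 0 ≤ p) (hp1 : p ≤ 1)
    (hlam : ∀ S T, g S ≠ 0 → g T ≠ 0 → cls S = cls T → Disjoint S T ∨ S ⊆ T ∨ T ⊆ S)
    (hcost : fcost g p ≤ 1 / 2) :
    ∃ G : Finset (Finset X), (∀ H : Finset X, 1 ≤ ∑ S ∈ H.powerset, g S → ∃ T ∈ G, T ⊆ H) ∧
      cost G (p / (576000 * (m : ℝ) ^ 2)) ≤ 1 / 2 := by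
  classical
  have hm : 0 < m := Fin.pos (cls ∅)
  have hm' : (0 : ℝ) < m := by exact_mod_cast hm
  have hm1 : (1 : ℝ) ≤ m := by exact_mod_cast hm
  set gi : Fin m → Finset X → ℝ :=
    fun i S => if cls S = i ∧ S.Nonempty then min 1 (2 * m * g S) else 0 with hgi
  have hgi0 : ∀ i S, 0 ≤ gi i S := by
    intro i S
    simp only [hgi]
    split_ifs
    · exact le_min zero_le_one (mul_nonneg (by positivity) (hg0 S))
    · exact le_rfl
  have hgine : ∀ i S, gi i S ≠ 0 → g S ≠ 0 ∧ cls S = i := by
    intro i S h
    simp only [hgi] at h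
    split_ifs at h with hc
    · refine ⟨fun h0 => h ?_, hc.1⟩
      rw [h0, mul_zero]
      exact min_eq_right zero_le_one
    · exact absurd rfl h
  set p1 : ℝ := p / (4 * m) with hp1def
  have hp10 : 0 ≤ p1 := by positivity
  have hp11 : p1 ≤ 1 := by
    rw [hp1def, div_le_one (by positivity)]
    linarith
  have hempty : g ∅ ≤ 1 / 2 := by
    have : g ∅ * p ^ (∅ : Finset X).card ≤ fcost g p :=
      single_le_sum (f := fun S : Finset X => g S * p ^ S.card)
        (fun S _ => mul_nonneg (hg0 S) (by positivity)) (mem_univ ∅)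
    simp only [card_empty, pow_zero, mul_one] at this
    linarith
  have hcosti : ∀ i, fcost (gi i) p1 ≤ 1 / 2 := by
    intro i
    have h1 : fcost (gi i) p1 ≤ ∑ S : Finset X, (1 / 2) * (g S * p ^ S.card) := by
      unfold fcost
      refine sum_le_sum fun S _ => ?_
      simp only [hgi]
      split_ifs with hc
      · have hcard : 1 ≤ S.card := card_pos.2 hc.2
        have h2 : p1 ^ S.card ≤ p ^ S.card / (4 * m) := by
          rw [hp1def, div_pow]
          have h3 : (4 * (m : ℝ)) ≤ (4 * m) ^ S.card := by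
            calc (4 * (m : ℝ)) = (4 * m) ^ 1 := by ring
              _ ≤ (4 * m) ^ S.card := pow_le_pow_right₀ (by linarith) hcard
          exact div_le_div_of_nonneg_left (by positivity) (by positivity) h3
        calc min 1 (2 * m * g S) * p1 ^ S.card ≤ (2 * m * g S) * (p ^ S.card / (4 * m)) :=
              mul_le_mul (min_le_right _ _) h2 (by positivity)
                (mul_nonneg (by positivity) (hg0 S))
          _ = 1 / 2 * (g S * p ^ S.card) := by field_simp; ring
      · rw [zero_mul]
        exact mul_nonneg (by norm_num) (mul_nonneg (hg0 S) (by positivity))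
    rw [← mul_sum] at h1
    have h2 : ∑ S : Finset X, g S * p ^ S.card ≤ 1 / 2 := hcost
    linarith
  have hex : ∀ i, ∃ G : Finset (Finset X),
      (∀ H : Finset X, 1 ≤ ∑ S ∈ H.powerset, gi i S → ∃ T ∈ G, T ⊆ H) ∧
      cost G (p1 / 144000) ≤ 1 / 2 := by
    intro i
    refine laminar (gi i) (hgi0 i) p1 hp10 hp11 ?_ (hcosti i)
    intro S T hS hT
    obtain ⟨a1, a2⟩ := hgine i S hS
    obtain ⟨b1, b2⟩ := hgine i T hT
    exact hlam S T a1 b1 (a2.trans b2.symm)
  choose Gi hGi1 hGi2 using hex
  refine ⟨univ.biUnion Gi, ?_, ?_⟩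
  · intro H hH
    -- some class carries weight
    have hsp : ∑ S ∈ H.powerset, g S
        = g ∅ + ∑ S ∈ H.powerset.filter (fun S => S.Nonempty), g S := by
      rw [← sum_filter_add_sum_filter_not H.powerset (fun S => S.Nonempty), add_comm]
      congr 1
      have : H.powerset.filter (fun S => ¬ S.Nonempty) = {∅} := by
        ext S
        simp only [mem_filter, mem_powerset, not_nonempty_iff_eq_empty, mem_singleton]
        constructor
        · exact fun h => h.2
        · rintro rfl
          exact ⟨empty_subset H, rfl⟩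
      rw [this, sum_singleton]
    have hhalf : 1 / 2 ≤ ∑ S ∈ H.powerset.filter (fun S => S.Nonempty), g S := by linarith
    have hfib : ∑ i : Fin m, ∑ S ∈ (H.powerset.filter (fun S => S.Nonempty)).filter
        (fun S => cls S = i), g S = ∑ S ∈ H.powerset.filter (fun S => S.Nonempty), g S :=
      sum_fiberwise_of_maps_to (fun S _ => mem_univ (cls S)) _
    obtain ⟨i, -, hi⟩ : ∃ i ∈ (univ : Finset (Fin m)), 1 / (2 * (m : ℝ)) ≤
        ∑ S ∈ (H.powerset.filter (fun S => S.Nonempty)).filter (fun S => cls S = i), g S := by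
      refine exists_le_of_sum_le ⟨cls ∅, mem_univ _⟩ ?_
      rw [hfib, sum_const, card_univ, Fintype.card_fin, nsmul_eq_mul]
      have : (m : ℝ) * (1 / (2 * (m : ℝ))) = 1 / 2 := by field_simp
      rw [this]
      exact hhalf
    set Bi := (H.powerset.filter (fun S => S.Nonempty)).filter (fun S => cls S = i) with hBi
    have h1 : 1 ≤ ∑ S ∈ Bi, 2 * m * g S := by
      rw [← mul_sum]
      have : 2 * (m : ℝ) * (1 / (2 * (m : ℝ))) = 1 := by field_simp
      calc (1 : ℝ) = 2 * (m : ℝ) * (1 / (2 * (m : ℝ))) := this.symm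
        _ ≤ _ := mul_le_mul_of_nonneg_left hi (by positivity)
    have h2 := cap_sum Bi (fun S => 2 * m * g S)
      (fun S _ => mul_nonneg (by positivity) (hg0 S)) h1
    have h3 : ∑ S ∈ Bi, min 1 (2 * m * g S) ≤ ∑ S ∈ H.powerset, gi i S := by
      calc ∑ S ∈ Bi, min 1 (2 * m * g S) = ∑ S ∈ Bi, gi i S := by
            refine sum_congr rfl fun S hS => ?_
            have hS1 := mem_filter.1 hS
            have hS2 := mem_filter.1 hS1.1
            simp only [hgi]
            rw [if_pos ⟨hS1.2, hS2.2⟩]
        _ ≤ _ := by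
            refine sum_le_sum_of_subset_of_nonneg ?_ (fun S _ _ => hgi0 i S)
            intro S hS
            exact (mem_filter.1 (mem_filter.1 hS).1).1
    obtain ⟨T, hT, hTH⟩ := hGi1 i H (h2.trans h3)
    exact ⟨T, mem_biUnion.2 ⟨i, mem_univ _, hT⟩, hTH⟩
  · set q1 : ℝ := p1 / 144000 with hq1
    have hq10 : 0 ≤ q1 := by positivity
    have hq : p / (576000 * (m : ℝ) ^ 2) = q1 / m := by
      rw [hq1, hp1def]
      field_simp
      ring
    rw [hq]
    have hne : ∀ i, ∀ S ∈ Gi i, S.Nonempty := by
      intro i S hS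
      by_contra hc
      rw [not_nonempty_iff_eq_empty] at hc
      have : q1 ^ S.card ≤ cost (Gi i) q1 :=
        single_le_sum (f := fun S : Finset X => q1 ^ S.card) (fun S _ => by positivity) hS
      rw [hc, card_empty, pow_zero] at this
      linarith [hGi2 i]
    have hci : ∀ i, cost (Gi i) (q1 / m) ≤ (1 / 2) / m := by
      intro i
      have h1 : cost (Gi i) (q1 / m) ≤ cost (Gi i) q1 / m := by
        unfold cost
        rw [sum_div]
        refine sum_le_sum fun S hS => ?_
        have hcard : 1 ≤ S.card := card_pos.2 (hne i S hS)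
        rw [div_pow]
        have h3 : (m : ℝ) ≤ (m : ℝ) ^ S.card := by
          calc (m : ℝ) = (m : ℝ) ^ 1 := by ring
            _ ≤ (m : ℝ) ^ S.card := pow_le_pow_right₀ hm1 hcard
        exact div_le_div_of_nonneg_left (by positivity) hm' h3
      exact h1.trans (div_le_div_of_nonneg_right (hGi2 i) hm'.le)
    calc cost (univ.biUnion Gi) (q1 / m) ≤ ∑ i : Fin m, cost (Gi i) (q1 / m) := by
          unfold cost
          calc ∑ S ∈ univ.biUnion Gi, (q1 / m) ^ S.card
              ≤ ∑ S ∈ univ.biUnion Gi, ∑ i : Fin m,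
                  (if S ∈ Gi i then (q1 / m) ^ S.card else 0) := by
                refine sum_le_sum fun S hS => ?_
                obtain ⟨i, -, hi⟩ := mem_biUnion.1 hS
                calc (q1 / m) ^ S.card = (if S ∈ Gi i then (q1 / m) ^ S.card else 0) := by
                      rw [if_pos hi]
                  _ ≤ _ := single_le_sum
                      (f := fun i => if S ∈ Gi i then (q1 / (m : ℝ)) ^ S.card else 0)
                      (fun j _ => by split_ifs <;> positivity) (mem_univ i)
            _ = ∑ i : Fin m, ∑ S ∈ (univ.biUnion Gi).filter (fun S => S ∈ Gi i),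
                  (q1 / m) ^ S.card := by
                rw [sum_comm]
                exact sum_congr rfl fun i _ => (sum_filter _ _).symm
            _ ≤ ∑ i : Fin m, ∑ S ∈ Gi i, (q1 / m) ^ S.card := by
                refine sum_le_sum fun i _ => ?_
                refine sum_le_sum_of_subset_of_nonneg ?_ (fun S _ _ => by positivity)
                intro S hS
                exact (mem_filter.1 hS).2
      _ ≤ ∑ _i : Fin m, (1 / 2) / (m : ℝ) := sum_le_sum fun i _ => hci i
      _ = 1 / 2 := by
          rw [sum_const, card_univ, Fintype.card_fin, nsmul_eq_mul]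
          field_simp

end Vale.Agent.P034.Packing
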