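import Mathlib
import Vale.Agent.P064.ForestLog

open Finset

namespace Vale.Agent.P034

open Vale.Agent.P064

section
variable {V : Type*} [Fintype V] [DecidableEq V]

theorem colour_bound' (H : SimpleGraph V) [DecidableRel H.Adj] (q : ℝ) (hq0 : 0 ≤ q) (hq1 : q ≤ 1)
    (hn : 2 ≤ Fintype.card V) (t : ℕ) (ht : 1 ≤ t) (c : V → Bool)
    (tail : ∀ (M : Finset V) (D : ℕ), 1 ≤ D →
      (∀ v ∈ M, c v = true ∧ D ≤ (blueNbrs H c v).card) →
      (M.card : ℝ) ≤ 2 * (Real.exp 1 *
        ((Fintype.card V : ℝ) * ((Fintype.card V).choose D : ℝ) * q ^ D))) :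
    (∑ v, ((rbDeg H c v).choose t : ℝ)) ≤
      (Fintype.card V : ℝ) * ((Fintype.card V - 1).choose t : ℝ) *
        ((4 * Real.exp 1 * q) ^ t + 4 * Real.exp 1 * (2 * Real.exp 1 * q) ^ t) := by
  classical
  set n := Fintype.card V with hnV
  set e := Real.exp 1 with he
  have he0 : 0 < e := Real.exp_pos 1
  set d := rbDeg H c with hd
  have hdn : ∀ v, d v ≤ n - 1 := by
    intro v
    rw [hd]; unfold rbDeg
    split_ifs
    · have : blueNbrs H c v ⊆ univ.erase v := by
        intro u hu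
        unfold blueNbrs at hu
        rw [mem_filter] at hu
        exact mem_erase.mpr ⟨hu.2.1.ne', mem_univ _⟩
      calc (blueNbrs H c v).card ≤ (univ.erase v).card := card_le_card this
        _ = n - 1 := by rw [card_erase_of_mem (mem_univ v), card_univ]
    · exact Nat.zero_le _
  have hc0 : (0 : ℝ) ≤ ((n - 1).choose t : ℝ) := by positivity
  -- split
  rw [← Finset.sum_filter_add_sum_filter_not univ (fun v => (d v : ℝ) ≤ 2 * e * ((n : ℝ) * q))]
  have hlow : ∑ v ∈ univ.filter (fun v => (d v : ℝ) ≤ 2 * e * ((n : ℝ) * q)), ((d v).choose t : ℝ)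
      ≤ (n : ℝ) * (((n - 1).choose t : ℝ) * (4 * e * q) ^ t) := by
    calc _ ≤ ∑ v ∈ univ.filter (fun v => (d v : ℝ) ≤ 2 * e * ((n : ℝ) * q)),
          (((n - 1).choose t : ℝ) * (4 * e * q) ^ t) := by
          refine Finset.sum_le_sum fun v hv => ?_
          exact low n (d v) t q hn (hdn v) hq0 (mem_filter.mp hv).2
      _ = ((univ.filter (fun v => (d v : ℝ) ≤ 2 * e * ((n : ℝ) * q))).card : ℝ)
          * (((n - 1).choose t : ℝ) * (4 * e * q) ^ t) := by rw [Finset.sum_const, nsmul_eq_mul]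
      _ ≤ (n : ℝ) * (((n - 1).choose t : ℝ) * (4 * e * q) ^ t) := by
          gcongr
          rw [hnV, ← card_univ]
          exact card_le_card (filter_subset _ _)
  set Hi := univ.filter (fun v => ¬ (d v : ℝ) ≤ 2 * e * ((n : ℝ) * q)) with hHi
  have hhigh : ∑ v ∈ Hi, ((d v).choose t : ℝ)
      ≤ 2 * e * n * ((n - 1).choose t : ℝ) * (2 * e * q) ^ t * 2 := by
    have h1 : ∑ v ∈ Hi, ((d v).choose t : ℝ) = ∑ v ∈ Hi.filter (fun v => t ≤ d v), ((d v).choose t : ℝ) := by
      refine (Finset.sum_filter_of_ne fun v _ h => ?_).symm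
      by_contra hlt
      exact h (by rw [Nat.choose_eq_zero_of_lt (by omega)]; simp)
    rw [h1]
    have hmaps : ∀ v ∈ Hi.filter (fun v => t ≤ d v), d v ∈ Finset.Ico t n := by
      intro v hv
      rw [Finset.mem_Ico]
      have := hdn v
      exact ⟨(mem_filter.mp hv).2, by omega⟩
    rw [← Finset.sum_fiberwise_of_maps_to hmaps]
    have hterm : ∀ D ∈ Finset.Ico t n,
        ∑ v ∈ (Hi.filter (fun v => t ≤ d v)).filter (fun v => d v = D), ((d v).choose t : ℝ)
          ≤ 2 * e * n * ((n - 1).choose t : ℝ) * (2 * e * q) ^ t * (1 / 2) ^ (D - t) := by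
      intro D hD
      rw [Finset.mem_Ico] at hD
      set M := (Hi.filter (fun v => t ≤ d v)).filter (fun v => d v = D) with hM
      have e1 : ∑ v ∈ M, ((d v).choose t : ℝ) = (M.card : ℝ) * (D.choose t : ℝ) := by
        rw [Finset.sum_congr rfl (fun v hv => by rw [(mem_filter.mp hv).2]), Finset.sum_const,
          nsmul_eq_mul]
      rw [e1]
      rcases M.eq_empty_or_nonempty with hemp | ⟨v0, hv0⟩
      · rw [hemp]; simp; positivity
      have hv0' := mem_filter.mp hv0
      have hv0'' := mem_filter.mp hv0'.1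
      have hbig : 2 * e * ((n : ℝ) * q) ≤ D := by
        have := (mem_filter.mp hv0''.1).2
        rw [hv0'.2] at this
        exact (not_le.mp this).le
      have hMS : ∀ v ∈ M, c v = true ∧ D ≤ (blueNbrs H c v).card := by
        intro v hv
        have hvD : d v = D := (mem_filter.mp hv).2
        rw [hd] at hvD
        unfold rbDeg at hvD
        split_ifs at hvD with hcv
        · exact ⟨hcv, hvD.ge⟩
        · omega
      have hb := tail M D (by omega) hMS
      exact key n D t q hn hD.1 (by omega) (by omega) hq0 hbig (M.card : ℝ) (by positivity) hb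
    calc _ ≤ ∑ D ∈ Finset.Ico t n, 2 * e * n * ((n - 1).choose t : ℝ) * (2 * e * q) ^ t * (1 / 2) ^ (D - t) :=
          Finset.sum_le_sum hterm
      _ = 2 * e * n * ((n - 1).choose t : ℝ) * (2 * e * q) ^ t * ∑ D ∈ Finset.Ico t n, ((1 : ℝ) / 2) ^ (D - t) := by
          rw [Finset.mul_sum]
      _ ≤ 2 * e * n * ((n - 1).choose t : ℝ) * (2 * e * q) ^ t * 2 := by
          gcongr
          exact geom_Ico t n
  calc _ ≤ (n : ℝ) * (((n - 1).choose t : ℝ) * (4 * e * q) ^ t)
        + 2 * e * n * ((n - 1).choose t : ℝ) * (2 * e * q) ^ t * 2 := add_le_add hlow hhigh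
    _ = _ := by ring


end

theorem star_case' (n : ℕ) (H : SimpleGraph (Fin n)) (q : ℝ) (hq0 : 0 ≤ q) (hq1 : q ≤ 1)
    (tail : ∀ (c : Fin n → Bool) (M : Finset (Fin n)) (D : ℕ), 1 ≤ D →
      (∀ v ∈ M, c v = true ∧ ∃ N : Finset (Fin n), N.card = D ∧ ∀ u ∈ N, H.Adj v u ∧ c u = false) →
      (M.card : ℝ) ≤ 2 * (Real.exp 1 * ((n : ℝ) * (n.choose D : ℝ) * q ^ D)))
    (t : ℕ) (ht : 1 ≤ t) :
    ((∑ v, ((H.neighborSet v).ncard).choose t : ℕ) : ℝ)
      ≤ (n : ℝ) * ((n - 1).choose t : ℝ) * (min 1 (280 * q)) ^ t := by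
  classical
  have hdeg : ∀ v, (H.neighborSet v).ncard = (univ.filter (fun u => H.Adj v u)).card := by
    intro v
    rw [← Set.ncard_coe_finset]
    congr 1
    ext u
    simp [SimpleGraph.mem_neighborSet]
  simp_rw [hdeg]
  have hdn : ∀ v, (univ.filter (fun u => H.Adj v u)).card ≤ n - 1 := by
    intro v
    have : univ.filter (fun u => H.Adj v u) ⊆ univ.erase v := by
      intro u hu
      exact mem_erase.mpr ⟨(mem_filter.mp hu).2.ne', mem_univ _⟩
    calc _ ≤ (univ.erase v).card := card_le_card this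
      _ = n - 1 := by rw [card_erase_of_mem (mem_univ v), card_univ, Fintype.card_fin]
  have htriv : ((∑ v, ((univ.filter (fun u => H.Adj v u)).card).choose t : ℕ) : ℝ)
      ≤ (n : ℝ) * ((n - 1).choose t : ℝ) := by
    have : ∑ v, ((univ.filter (fun u => H.Adj v u)).card).choose t ≤ n * (n - 1).choose t := by
      calc _ ≤ ∑ _v : Fin n, (n - 1).choose t :=
            Finset.sum_le_sum fun v _ => Nat.choose_le_choose t (hdn v)
        _ = n * (n - 1).choose t := by rw [Finset.sum_const, card_univ, Fintype.card_fin, smul_eq_mul]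
    exact_mod_cast this
  rcases le_or_gt 1 (280 * q) with hL | hL
  · rw [min_eq_left hL, one_pow, mul_one]; exact htriv
  rw [min_eq_right hL.le]
  rcases Nat.lt_or_ge n 2 with hn | hn
  · -- no edges
    have hz : (n - 1).choose t = 0 := by
      rw [show n - 1 = 0 by omega]; exact Nat.choose_eq_zero_of_lt (by omega)
    rw [hz] at htriv
    refine htriv.trans ?_
    simp only [Nat.cast_zero, mul_zero]
    positivity
  obtain ⟨c, hc⟩ := exists_colouring H t ht
  have hcb := colour_bound' H q hq0 hq1 (by rw [Fintype.card_fin]; exact hn) t ht c (by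
    intro M D hD hM
    rw [Fintype.card_fin]
    refine tail c M D hD fun v hv => ⟨(hM v hv).1, ?_⟩
    obtain ⟨N, hN1, hN2⟩ := Finset.exists_subset_card_eq (hM v hv).2
    refine ⟨N, hN2, fun u hu => ?_⟩
    have := hN1 hu
    unfold blueNbrs at this
    exact (mem_filter.mp this).2)
  rw [Fintype.card_fin] at hcb
  have hc' : ((∑ v, ((univ.filter (fun u => H.Adj v u)).card).choose t : ℕ) : ℝ)
      ≤ 2 ^ (t + 1) * ∑ v, ((rbDeg H c v).choose t : ℝ) := by exact_mod_cast hc
  have hnum := numeric q hq0 t ht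
  have hpos : (0 : ℝ) ≤ (n : ℝ) * ((n - 1).choose t : ℝ) := by positivity
  calc _ ≤ 2 ^ (t + 1) * ∑ v, ((rbDeg H c v).choose t : ℝ) := hc'
    _ ≤ 2 ^ (t + 1) * ((n : ℝ) * ((n - 1).choose t : ℝ) *
        ((4 * Real.exp 1 * q) ^ t + 4 * Real.exp 1 * (2 * Real.exp 1 * q) ^ t)) := by gcongr
    _ = (n : ℝ) * ((n - 1).choose t : ℝ) * (2 ^ (t + 1) *
        ((4 * Real.exp 1 * q) ^ t + 4 * Real.exp 1 * (2 * Real.exp 1 * q) ^ t)) := by ring
    _ ≤ (n : ℝ) * ((n - 1).choose t : ℝ) * (280 * q) ^ t := by gcongr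


end Vale.Agent.P034
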