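import Mathlib
import Vale.Agent.P034.Tail
import Vale.Agent.P034.Containment

open Finset

namespace Vale.Agent.P034

open Vale.Agent.P064

theorem sum_image_le' {α β : Type*} [DecidableEq β] (s : Finset α) (f : α → β) (h : β → ℝ)
    (hh : ∀ y, 0 ≤ h y) : ∑ y ∈ s.image f, h y ≤ ∑ x ∈ s, h (f x) := by
  classical
  rw [← Finset.sum_fiberwise_of_maps_to (fun x hx => Finset.mem_image_of_mem f hx)]
  refine Finset.sum_le_sum fun y hy => ?_
  obtain ⟨x, hx, rfl⟩ := Finset.mem_image.mp hy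
  calc h (f x) = ∑ z ∈ ({x} : Finset α), h (f z) := by simp
    _ ≤ ∑ z ∈ s.filter (fun z => f z = f x), h (f z) := by
        refine Finset.sum_le_sum_of_subset_of_nonneg ?_ (fun _ _ _ => hh _)
        intro z hz
        rw [Finset.mem_singleton] at hz
        subst hz
        exact Finset.mem_filter.mpr ⟨hx, rfl⟩

/-- the number of stars in a member of the cover -/
noncomputable def sNum (n D : ℕ) (q : ℝ) : ℕ :=
  ⌊2 * (Real.exp 1 * ((n : ℝ) * (n.choose D : ℝ) * q ^ D))⌋₊ + 1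

/-- distinct centres, and no centre is a leaf -/
def Sep {n : ℕ} (P : Finset (Fin n × Finset (Fin n))) : Prop :=
  (∀ p ∈ P, ∀ p' ∈ P, p.1 ∉ p'.2) ∧ (∀ p ∈ P, ∀ p' ∈ P, p.1 = p'.1 → p = p')

open Classical in
noncomputable def fam (n D : ℕ) (q : ℝ) : Finset (Finset (Fin n × Finset (Fin n))) :=
  (powersetCard (sNum n D q) (univ ×ˢ powersetCard D univ)).filter Sep

open Classical in
noncomputable def cover (n : ℕ) (q : ℝ) : Finset (SimpleGraph (Fin n)) :=
  ((Finset.Ico 1 n).sigma (fun D => fam n D q)).image (fun x => starGraph x.2)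

theorem edges_sep {n : ℕ} (P : Finset (Fin n × Finset (Fin n))) (hP : Sep P) (D : ℕ)
    (hD : ∀ p ∈ P, p.2.card = D) : P.card * D ≤ (starGraph P).edgeSet.ncard := by
  classical
  set T : Finset (Σ _ : Fin n × Finset (Fin n), Fin n) := P.sigma (fun p => p.2) with hT
  have hTc : T.card = P.card * D := by
    rw [hT, Finset.card_sigma, Finset.sum_congr rfl hD, Finset.sum_const, smul_eq_mul]
  let f : (Σ _ : Fin n × Finset (Fin n), Fin n) → Sym2 (Fin n) := fun x => s(x.1.1, x.2)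
  have hinj : Set.InjOn f (T : Set (Σ _ : Fin n × Finset (Fin n), Fin n)) := by
    rintro ⟨x1, x2⟩ hx ⟨y1, y2⟩ hy hxy
    rw [Finset.mem_coe, hT, Finset.mem_sigma] at hx hy
    simp only [f, Sym2.eq_iff] at hxy
    rcases hxy with ⟨h1, h2⟩ | ⟨h1, h2⟩
    · have := hP.2 x1 hx.1 y1 hy.1 h1
      subst this
      subst h2
      rfl
    · exfalso
      apply hP.1 x1 hx.1 y1 hy.1
      rw [h1]
      exact hy.2
  have hsub : (↑(T.image f) : Set (Sym2 (Fin n))) ⊆ (starGraph P).edgeSet := by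
    intro e he
    rw [Finset.mem_coe] at he
    obtain ⟨⟨x1, x2⟩, hx, rfl⟩ := Finset.mem_image.mp he
    rw [hT, Finset.mem_sigma] at hx
    show s(x1.1, x2) ∈ (starGraph P).edgeSet
    rw [SimpleGraph.mem_edgeSet, starGraph_adj]
    refine ⟨?_, Or.inl ⟨x1, hx.1, rfl, hx.2⟩⟩
    intro h
    apply hP.1 x1 hx.1 x1 hx.1
    rw [h]
    exact hx.2
  calc P.card * D = (T.image f).card := by rw [Finset.card_image_of_injOn hinj, hTc]
    _ = Set.ncard (↑(T.image f) : Set (Sym2 (Fin n))) := (Set.ncard_coe_finset _).symm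
    _ ≤ (starGraph P).edgeSet.ncard := Set.ncard_le_ncard hsub (Set.toFinite _)

theorem term_bound (n D : ℕ) (hD : 1 ≤ D) (q : ℝ) (hq0 : 0 ≤ q) :
    ((fam n D q).card : ℝ) * (q / 2) ^ (sNum n D q * D) ≤ (1 / 4) * (1 / 2) ^ (D - 1) := by
  classical
  set s := sNum n D q with hs
  set Pn : ℕ := n * n.choose D with hPn
  set ν : ℝ := (n : ℝ) * (n.choose D : ℝ) * q ^ D with hν
  have hν0 : 0 ≤ ν := by positivity
  have hspos : 0 < s := by rw [hs]; unfold sNum; omega
  have hspos' : (0 : ℝ) < s := by exact_mod_cast hspos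
  have hslt : 2 * (Real.exp 1 * ν) < s := by
    rw [hs]; unfold sNum
    push_cast
    exact Nat.lt_floor_add_one _
  have h1 : ((fam n D q).card : ℝ) ≤ (Pn : ℝ) ^ s / (s.factorial : ℝ) := by
    have : (fam n D q).card ≤ Pn.choose s := by
      unfold fam
      calc _ ≤ (powersetCard (sNum n D q)
            ((univ : Finset (Fin n)) ×ˢ powersetCard D (univ : Finset (Fin n)))).card :=
            card_le_card (filter_subset _ _)
        _ = Pn.choose s := by
            rw [card_powersetCard, card_product, card_powersetCard, card_univ, Fintype.card_fin]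
    calc ((fam n D q).card : ℝ) ≤ (Pn.choose s : ℝ) := by exact_mod_cast this
      _ ≤ _ := Nat.choose_le_pow_div s Pn
  have h2 : (q / 2) ^ (s * D) = (q ^ D) ^ s * ((1 / 2) ^ D) ^ s := by
    rw [div_eq_mul_one_div, mul_pow, mul_comm s D, pow_mul, pow_mul]
  have h3 : (Pn : ℝ) ^ s / (s.factorial : ℝ) * (q ^ D) ^ s = ν ^ s / (s.factorial : ℝ) := by
    rw [hν, hPn]; push_cast; rw [mul_pow ((n : ℝ) * (n.choose D : ℝ)) (q ^ D) s]; ring
  have h4 : ν ^ s / (s.factorial : ℝ) ≤ (1 / 2) ^ s := by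
    refine (pow_div_factorial_le s hspos ν hν0).trans ?_
    refine pow_le_pow_left₀ (by positivity) ?_ s
    rw [div_le_iff₀ hspos']
    linarith
  have h5 : ((1 : ℝ) / 2) ^ s ≤ 1 / 2 := by
    calc ((1 : ℝ) / 2) ^ s ≤ (1 / 2) ^ 1 := pow_le_pow_of_le_one (by norm_num) (by norm_num) hspos
      _ = 1 / 2 := by norm_num
  have h6 : (((1 : ℝ) / 2) ^ D) ^ s ≤ (1 / 2) ^ D := by
    calc (((1 : ℝ) / 2) ^ D) ^ s ≤ ((1 / 2) ^ D) ^ 1 :=
          pow_le_pow_of_le_one (by positivity) (pow_le_one₀ (by norm_num) (by norm_num)) hspos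
      _ = (1 / 2) ^ D := by ring
  have h7 : ((1 : ℝ) / 2) ^ D = (1 / 2) * (1 / 2) ^ (D - 1) := by
    rw [← pow_succ']; congr 1; omega
  calc ((fam n D q).card : ℝ) * (q / 2) ^ (s * D)
      ≤ ((Pn : ℝ) ^ s / (s.factorial : ℝ)) * ((q ^ D) ^ s * ((1 / 2) ^ D) ^ s) := by
        rw [h2]; gcongr
    _ = (ν ^ s / (s.factorial : ℝ)) * ((1 / 2) ^ D) ^ s := by rw [← mul_assoc, h3]
    _ ≤ (1 / 2) * (1 / 2) ^ D := by
        have := h4.trans h5
        gcongr
    _ = (1 / 4) * (1 / 2) ^ (D - 1) := by rw [h7]; ring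

theorem cost_fam (n D : ℕ) (hD1 : 1 ≤ D) (q : ℝ) (hq0 : 0 ≤ q) (hq1 : q ≤ 1) :
    ∑ P ∈ fam n D q, (q / 2) ^ (starGraph P).edgeSet.ncard ≤ (1 / 4) * (1 / 2 : ℝ) ^ (D - 1) := by
  classical
  have hq2 : q / 2 ≤ 1 := by linarith
  have hq20 : 0 ≤ q / 2 := by positivity
  refine le_trans ?_ (term_bound n D hD1 q hq0)
  calc ∑ P ∈ fam n D q, (q / 2) ^ (starGraph P).edgeSet.ncard
      ≤ ∑ _P ∈ fam n D q, (q / 2) ^ (sNum n D q * D) := by
        refine Finset.sum_le_sum fun P hP => ?_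
        unfold fam at hP
        obtain ⟨hP1, hP2⟩ := mem_filter.mp hP
        obtain ⟨hP3, hP4⟩ := mem_powersetCard.mp hP1
        have hPD : ∀ p ∈ P, p.2.card = D := by
          intro p hp
          have := hP3 hp
          rw [mem_product] at this
          exact (mem_powersetCard.mp this.2).2
        have := edges_sep P hP2 D hPD
        rw [hP4] at this
        exact pow_le_pow_of_le_one hq20 hq2 this
    _ = ((fam n D q).card : ℝ) * (q / 2) ^ (sNum n D q * D) := by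
        rw [Finset.sum_const, nsmul_eq_mul]

theorem cost_cover_le (n : ℕ) (q : ℝ) (hq0 : 0 ≤ q) :
    cost (cover n q) (q / 2) ≤ ∑ x ∈ (Finset.Ico 1 n).sigma (fun D => fam n D q),
          (q / 2) ^ (starGraph x.2).edgeSet.ncard := by
  have hq20 : 0 ≤ q / 2 := by positivity
  unfold cost cover
  exact @sum_image_le' _ _ (fun a b => Classical.propDecidable (a = b)) _ _
    (fun S : SimpleGraph (Fin n) => (q / 2) ^ S.edgeSet.ncard) (fun S => pow_nonneg hq20 _)

theorem cost_cover (n : ℕ) (q : ℝ) (hq0 : 0 ≤ q) (hq1 : q ≤ 1) :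
    cost (cover n q) (q / 2) ≤ 1 / 2 := by
  refine (cost_cover_le n q hq0).trans ?_
  rw [Finset.sum_sigma]
  calc ∑ D ∈ Finset.Ico 1 n, ∑ P ∈ fam n D q, (q / 2) ^ (starGraph P).edgeSet.ncard
      ≤ ∑ D ∈ Finset.Ico 1 n, (1 / 4) * (1 / 2 : ℝ) ^ (D - 1) :=
        Finset.sum_le_sum fun D hD => cost_fam n D (Finset.mem_Ico.mp hD).1 q hq0 hq1
    _ = (1 / 4) * ∑ D ∈ Finset.Ico 1 n, (1 / 2 : ℝ) ^ (D - 1) := by rw [Finset.mul_sum]
    _ ≤ (1 / 4) * 2 := by
        gcongr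
        exact geom_Ico 1 n
    _ = 1 / 2 := by norm_num

theorem tail_of_not_cover (n : ℕ) (G : SimpleGraph (Fin n)) (q : ℝ) (hq0 : 0 ≤ q)
    (hno : ∀ S ∈ cover n q, ¬ S ≤ G) :
    ∀ (c : Fin n → Bool) (M : Finset (Fin n)) (D : ℕ), 1 ≤ D →
      (∀ v ∈ M, c v = true ∧ ∃ N : Finset (Fin n), N.card = D ∧ ∀ u ∈ N, G.Adj v u ∧ c u = false) →
      (M.card : ℝ) ≤ 2 * (Real.exp 1 * ((n : ℝ) * (n.choose D : ℝ) * q ^ D)) := by
  classical
  intro c M D hD hM
  by_contra hlt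
  have hlt : 2 * (Real.exp 1 * ((n : ℝ) * (n.choose D : ℝ) * q ^ D)) < M.card := not_le.mp hlt
  have hs : sNum n D q ≤ M.card := by
    unfold sNum
    exact (Nat.floor_lt (by positivity)).mpr hlt
  obtain ⟨M', hM'sub, hM'card⟩ := Finset.exists_subset_card_eq hs
  have hN : ∀ v, ∃ N : Finset (Fin n), v ∈ M' →
      (N.card = D ∧ ∀ u ∈ N, G.Adj v u ∧ c u = false) := by
    intro v
    by_cases hv : v ∈ M'
    · obtain ⟨N, hN⟩ := (hM v (hM'sub hv)).2
      exact ⟨N, fun _ => hN⟩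
    · exact ⟨∅, fun h => absurd h hv⟩
  choose N hN using hN
  set P : Finset (Fin n × Finset (Fin n)) := M'.image (fun v => (v, N v)) with hP
  have hPc : P.card = sNum n D q := by
    rw [hP, Finset.card_image_of_injective _ (fun a b h => (Prod.ext_iff.mp h).1), hM'card]
  have hle : starGraph P ≤ G := by
    intro a b hab
    rw [starGraph_adj] at hab
    obtain ⟨-, h | h⟩ := hab
    · obtain ⟨p, hp, rfl, hb⟩ := h
      obtain ⟨v, hv, rfl⟩ := Finset.mem_image.mp hp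
      exact ((hN v hv).2 b hb).1
    · obtain ⟨p, hp, rfl, hb⟩ := h
      obtain ⟨v, hv, rfl⟩ := Finset.mem_image.mp hp
      exact ((hN v hv).2 a hb).1.symm
  have hsep : Sep P := by
    constructor
    · intro p hp p' hp' hmem
      obtain ⟨v, hv, rfl⟩ := Finset.mem_image.mp hp
      obtain ⟨v', hv', rfl⟩ := Finset.mem_image.mp hp'
      have e1 := (hM v (hM'sub hv)).1
      have e2 := ((hN v' hv').2 v hmem).2
      rw [e2] at e1
      exact Bool.false_ne_true e1
    · intro p hp p' hp' h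
      obtain ⟨v, hv, rfl⟩ := Finset.mem_image.mp hp
      obtain ⟨v', hv', rfl⟩ := Finset.mem_image.mp hp'
      have h' : v = v' := h
      subst h'
      rfl
  have hDn : D < n := by
    have hpos : 0 < M'.card := by rw [hM'card]; unfold sNum; omega
    obtain ⟨v, hv⟩ := Finset.card_pos.mp hpos
    have hsub : N v ⊆ univ.erase v := by
      intro u hu
      exact mem_erase.mpr ⟨((hN v hv).2 u hu).1.ne', mem_univ _⟩
    have := card_le_card hsub
    rw [(hN v hv).1, card_erase_of_mem (mem_univ v), card_univ, Fintype.card_fin] at this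
    have hn : 0 < n := Fin.pos v
    omega
  have hfam : P ∈ fam n D q := by
    unfold fam
    refine mem_filter.mpr ⟨mem_powersetCard.mpr ⟨?_, hPc⟩, hsep⟩
    intro p hp
    obtain ⟨v, hv, rfl⟩ := Finset.mem_image.mp hp
    exact mem_product.mpr ⟨mem_univ _, mem_powersetCard.mpr ⟨subset_univ _, (hN v hv).1⟩⟩
  refine hno (starGraph P) ?_ hle
  unfold cover
  exact mem_image.mpr ⟨⟨D, P⟩, mem_sigma.mpr ⟨Finset.mem_Ico.mpr ⟨hD, hDn⟩, hfam⟩, rfl⟩

theorem star_forest_tail (n : ℕ) (G : SimpleGraph (Fin n)) (q : ℝ) (hq0 : 0 ≤ q) (hq1 : q ≤ 1)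
    (tail : ∀ (c : Fin n → Bool) (M : Finset (Fin n)) (D : ℕ), 1 ≤ D →
      (∀ v ∈ M, c v = true ∧ ∃ N : Finset (Fin n), N.card = D ∧ ∀ u ∈ N, G.Adj v u ∧ c u = false) →
      (M.card : ℝ) ≤ 2 * (Real.exp 1 * ((n : ℝ) * (n.choose D : ℝ) * q ^ D)))
    (F : SimpleGraph (Fin n)) (hF : IsStarForest F) :
    (subCount G F : ℝ) ≤ (subCount ⊤ F : ℝ) * (2070 * q) ^ F.edgeSet.ncard := by
  set p : ℝ := min 1 (280 * q) with hp
  have hp0 : 0 ≤ p := le_min zero_le_one (by positivity)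
  have hp1 : p ≤ 280 * q := min_le_right _ _
  have hstar : ∀ t, 1 ≤ t → ((∑ v, ((G.neighborSet v).ncard).choose t : ℕ) : ℝ)
      ≤ (n : ℝ) * ((n - 1).choose t : ℝ) * p ^ t :=
    fun t ht => star_case' n G q hq0 hq1 tail t ht
  have hC : ∀ W : Finset (Fin n), (∀ a b, F.Adj a b → a ∈ W) →
      (embCount F G W : ℝ) ≤ (n : ℝ) ^ W.card * p ^ F.edgeSet.ncard :=
    fun W hW => emb_bound G p hp0 hstar _ F W hF rfl hW
  refine (count_of_emb n G F p hp0 hC).trans ?_
  have he2 : Real.exp 1 < 2.7182818286 := Real.exp_one_lt_d9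
  have hsq : Real.exp 1 ^ 2 ≤ 7.39 := by nlinarith [Real.exp_pos 1]
  have hbase : Real.exp 1 ^ 2 * p ≤ 2070 * q := by
    calc Real.exp 1 ^ 2 * p ≤ 7.39 * (280 * q) := by gcongr
      _ ≤ 2070 * q := by nlinarith
  gcongr

theorem cert (n : ℕ) (F₀ : SimpleGraph (Fin n)) (hF₀ : IsStarForest F₀) (w p : ℝ) (hw : 0 ≤ w)
    (hp0 : 0 ≤ p) (hcost : w * ((subCount ⊤ F₀ : ℝ) * p ^ F₀.edgeSet.ncard) ≤ 1 / 2) :
    ∃ C : Finset (SimpleGraph (Fin n)),
      (∀ G : SimpleGraph (Fin n), 1 ≤ w * (subCount G F₀ : ℝ) → ∃ S ∈ C, S ≤ G) ∧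
      cost C (p / 4140) ≤ 1 / 2 := by
  rcases le_or_gt p 2070 with hp | hp
  · have hq0 : 0 ≤ p / 2070 := by positivity
    have hq1 : p / 2070 ≤ 1 := by rw [div_le_one (by norm_num)]; exact hp
    refine ⟨cover n (p / 2070), ?_, ?_⟩
    · intro G hG
      by_contra hno
      have hno' : ∀ S ∈ cover n (p / 2070), ¬ S ≤ G := fun S hS hle => hno ⟨S, hS, hle⟩
      have h1 := star_forest_tail n G (p / 2070) hq0 hq1
        (tail_of_not_cover n G (p / 2070) hq0 hno') F₀ hF₀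
      have h2 : 2070 * (p / 2070) = p := by ring
      rw [h2] at h1
      have h3 : w * (subCount G F₀ : ℝ) ≤ w * ((subCount ⊤ F₀ : ℝ) * p ^ F₀.edgeSet.ncard) :=
        mul_le_mul_of_nonneg_left h1 hw
      linarith
    · have h := cost_cover n (p / 2070) hq0 hq1
      have h2 : p / 2070 / 2 = p / 4140 := by ring
      rw [h2] at h
      exact h
  · refine ⟨∅, ?_, ?_⟩
    · intro G hG
      exfalso
      have h1 : (subCount G F₀ : ℝ) ≤ (subCount ⊤ F₀ : ℝ) := by
        exact_mod_cast subCount_le_top G F₀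
      have h2 : (1 : ℝ) ≤ p ^ F₀.edgeSet.ncard := one_le_pow₀ (by linarith)
      have h3 : (subCount G F₀ : ℝ) ≤ (subCount ⊤ F₀ : ℝ) * p ^ F₀.edgeSet.ncard :=
        h1.trans (le_mul_of_one_le_right (by positivity) h2)
      have h4 := mul_le_mul_of_nonneg_left h3 hw
      linarith
    · unfold cost
      simp

theorem sum_indicator_copy {n : ℕ} (G F₀ : SimpleGraph (Fin n)) (w : ℝ) :
    ∑ S, Set.indicator {S : SimpleGraph (Fin n) | S ≤ G}
      (Set.indicator {S : SimpleGraph (Fin n) | Nonempty (S ≃g F₀)} (fun _ => w)) S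
      = w * (subCount G F₀ : ℝ) := by
  classical
  have h : ∀ S : SimpleGraph (Fin n), Set.indicator {S : SimpleGraph (Fin n) | S ≤ G}
      (Set.indicator {S : SimpleGraph (Fin n) | Nonempty (S ≃g F₀)} (fun _ => w)) S
      = if (S ≤ G ∧ Nonempty (S ≃g F₀)) then w else 0 := by
    intro S
    by_cases h1 : S ≤ G <;> by_cases h2 : Nonempty (S ≃g F₀) <;>
      simp [Set.indicator_apply, h1, h2]
  rw [Finset.sum_congr rfl (fun S _ => h S), ← Finset.sum_filter, Finset.sum_const, nsmul_eq_mul,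
    mul_comm]
  congr 2
  rw [subCount, ← Set.ncard_coe_finset]
  congr 1
  ext S
  simp

theorem fcost_copy {n : ℕ} (F₀ : SimpleGraph (Fin n)) (w p : ℝ) :
    fcost (Set.indicator {S : SimpleGraph (Fin n) | Nonempty (S ≃g F₀)} (fun _ => w)) p
      = w * ((subCount ⊤ F₀ : ℝ) * p ^ F₀.edgeSet.ncard) := by
  classical
  unfold fcost
  have h : ∀ S : SimpleGraph (Fin n),
      Set.indicator {S : SimpleGraph (Fin n) | Nonempty (S ≃g F₀)} (fun _ => w) S
        * p ^ S.edgeSet.ncard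
      = if (S ≤ ⊤ ∧ Nonempty (S ≃g F₀)) then w * p ^ F₀.edgeSet.ncard else 0 := by
    intro S
    by_cases h2 : Nonempty (S ≃g F₀)
    · obtain ⟨e⟩ := h2
      have h3 : Nonempty (S ≃g F₀) := ⟨e⟩
      simp [Set.indicator_apply, h3, edges_iso e]
    · simp [Set.indicator_apply, h2]
  rw [Finset.sum_congr rfl (fun S _ => h S), ← Finset.sum_filter, Finset.sum_const, nsmul_eq_mul]
  have hc : ((univ.filter (fun S : SimpleGraph (Fin n) => S ≤ ⊤ ∧ Nonempty (S ≃g F₀))).card : ℝ)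
      = (subCount ⊤ F₀ : ℝ) := by
    congr 1
    rw [subCount, ← Set.ncard_coe_finset]
    congr 1
    ext S
    simp
  rw [hc]; ring

end Vale.Agent.P034
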